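import Mathlib

namespace Vale.Agent.P243

/-- corner case: the corner (0,0) of the unit square belongs to the convex set -/
theorem corner_arith (t r ξ η ft gr : ℝ) (ht0 : 0 ≤ t) (ht1 : t ≤ 1) (hr0 : 0 ≤ r) (hr1 : r ≤ 1)
    (LT0 : ft + t * η ≤ t) (LR0 : r * ξ + gr ≤ r)
    (RT : (1 - r) * (ξ - ft) + (1 - t) * (η - gr) ≤ (1 - t) * (1 - r))
    (hft : ξ - ft ≤ 1 - t) : ξ + η ≤ 1 := by
  have key : (1 - r * t) * (ξ + η) ≤ 1 - r * t := by
    have h1 := mul_le_mul_of_nonneg_left LT0 (sub_nonneg.mpr hr1)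
    have h2 := mul_le_mul_of_nonneg_left LR0 (sub_nonneg.mpr ht1)
    linarith [h1, h2, RT]
  by_cases hrt : r * t < 1
  · have hpos : 0 < 1 - r * t := by linarith
    by_contra hcon
    push Not at hcon
    nlinarith
  · push Not at hrt
    have ht : t = 1 := by nlinarith
    subst ht
    linarith

/-- generic combination of the four edges and the chord bottom-top -/
theorem generic_arith (b t l r ξ η fb ft gl gr : ℝ)
    (hb0 : 0 < b) (hb1 : b < 1) (ht0 : 0 < t) (ht1 : t < 1)
    (hl0 : 0 < l) (hl1 : l < 1) (hr0 : 0 < r) (hr1 : r < 1)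
    (LB : l * fb + b * gl ≤ b * l)
    (LT : (1 - l) * ft + t * (η - gl) ≤ t * (1 - l))
    (RB : r * (ξ - fb) + (1 - b) * gr ≤ (1 - b) * r)
    (RT : (1 - r) * (ξ - ft) + (1 - t) * (η - gr) ≤ (1 - t) * (1 - r))
    (BT : |ft - fb| + |t - b| * η ≤ |t - b|)
    (hΓ : (t - b) * (b * r * (1 - t) - t * l * (1 - b) + l * r * (t - b)) ≤ 0) :
    ξ + η ≤ 1 := by
  set Γ := b * r * (1 - t) - t * l * (1 - b) + l * r * (t - b) with hΓdef
  set D := b * (1 - l) + l * t with hD
  set D' := (1 - t) * r + (1 - b) * (1 - r) with hD'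
  have hDpos : 0 < D := by
    have := mul_pos hb0 (sub_pos.mpr hl1); have := mul_pos hl0 ht0; rw [hD]; linarith
  have hD'pos : 0 < D' := by
    have := mul_pos (sub_pos.mpr ht1) hr0; have := mul_pos (sub_pos.mpr hb1) (sub_pos.mpr hr1)
    rw [hD']; linarith
  -- sum of left edges
  have SL : D * fb + b * (1 - l) * (ft - fb) + b * t * η ≤ b * t := by
    have h1 := mul_le_mul_of_nonneg_left LB ht0.le
    have h2 := mul_le_mul_of_nonneg_left LT hb0.le
    rw [hD]; linarith [h1, h2]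
  have SR : D' * (ξ - fb) - (1 - b) * (1 - r) * (ft - fb) + (1 - b) * (1 - t) * η
      ≤ (1 - b) * (1 - t) := by
    have h1 := mul_le_mul_of_nonneg_left RB (sub_pos.mpr ht1).le
    have h2 := mul_le_mul_of_nonneg_left RT (sub_pos.mpr hb1).le
    rw [hD']; linarith [h1, h2]
  have main : D * D' * ξ + Γ * (ft - fb) ≤ (D * D' + (t - b) * Γ) * (1 - η) := by
    have h1 := mul_le_mul_of_nonneg_left SL hD'pos.le
    have h2 := mul_le_mul_of_nonneg_left SR hDpos.le
    have e1 : D' * (D * fb + b * (1 - l) * (ft - fb) + b * t * η)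
        + D * (D' * (ξ - fb) - (1 - b) * (1 - r) * (ft - fb) + (1 - b) * (1 - t) * η)
        = D * D' * ξ + Γ * (ft - fb) + (D * D' + (t - b) * Γ) * η := by
      rw [hD, hD', hΓdef]; ring
    have e2 : D' * (b * t) + D * ((1 - b) * (1 - t)) = D * D' + (t - b) * Γ := by
      rw [hD, hD', hΓdef]; ring
    have h3 := add_le_add h1 h2
    rw [e1, e2] at h3
    linarith [h3]
  -- bound the cross term
  have hη : |ft - fb| ≤ |t - b| * (1 - η) := by linarith
  have hcross : -(Γ * (ft - fb)) ≤ -((t - b) * Γ) * (1 - η) := by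
    have h1 : -(Γ * (ft - fb)) ≤ |Γ| * |ft - fb| := by
      rw [← abs_mul]; exact neg_le_abs _
    have h2 : |Γ| * |ft - fb| ≤ |Γ| * (|t - b| * (1 - η)) :=
      mul_le_mul_of_nonneg_left hη (abs_nonneg _)
    have h3 : |Γ| * |t - b| = -((t - b) * Γ) := by
      rw [← abs_mul, mul_comm Γ, abs_of_nonpos hΓ]
    calc -(Γ * (ft - fb)) ≤ |Γ| * (|t - b| * (1 - η)) := h1.trans h2
      _ = (|Γ| * |t - b|) * (1 - η) := by ring
      _ = -((t - b) * Γ) * (1 - η) := by rw [h3]
  have hfin : D * D' * ξ ≤ D * D' * (1 - η) := by linarith [main, hcross]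
  have hDD : 0 < D * D' := mul_pos hDpos hD'pos
  have := le_of_mul_le_mul_left hfin hDD
  linarith


theorem gamma_dichotomy (b t l r : ℝ)
    (hb0 : 0 < b) (hb1 : b < 1) (ht0 : 0 < t) (ht1 : t < 1)
    (hl0 : 0 < l) (hl1 : l < 1) (_hr0 : 0 < r) (_hr1 : r < 1)
    (h : 0 < (t - b) * (b * r * (1 - t) - t * l * (1 - b) + l * r * (t - b))) :
    (r - l) * (l * t * (1 - r) - r * b * (1 - l) + b * t * (r - l)) ≤ 0 := by
  set Γ := b * r * (1 - t) - t * l * (1 - b) + l * r * (t - b) with hΓ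
  have e : l * t * (1 - r) - r * b * (1 - l) + b * t * (r - l) = -Γ := by rw [hΓ]; ring
  rw [e]
  have dec : Γ = -(l * (1 - l) * (t - b)) + (r - l) * (b * (1 - t) + l * (t - b)) := by
    rw [hΓ]; ring
  have hll : 0 < l * (1 - l) := mul_pos hl0 (sub_pos.mpr hl1)
  rcases lt_trichotomy t b with htb | htb | htb
  · -- t < b, so Γ < 0
    have hΓneg : Γ < 0 := by
      by_contra hc
      push Not at hc
      have : (t - b) * Γ ≤ 0 := mul_nonpos_of_nonpos_of_nonneg (by linarith) hc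
      linarith
    have hc : 0 ≤ b * (1 - t) + l * (t - b) := by nlinarith [mul_pos ht0 (sub_pos.mpr hb1)]
    have hrl : r ≤ l := by
      by_contra hc2
      push Not at hc2
      have h1 : 0 ≤ (r - l) * (b * (1 - t) + l * (t - b)) := mul_nonneg (by linarith) hc
      have h2 : 0 ≤ -(l * (1 - l) * (t - b)) := by nlinarith
      linarith
    have : 0 ≤ (r - l) * Γ := mul_nonneg_of_nonpos_of_nonpos (by linarith) hΓneg.le
    linarith
  · subst htb; simp at h
  · have hΓpos : 0 < Γ := by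
      by_contra hc
      push Not at hc
      have : (t - b) * Γ ≤ 0 := mul_nonpos_of_nonneg_of_nonpos (by linarith) hc
      linarith
    have hc : 0 ≤ b * (1 - t) + l * (t - b) := by
      have := mul_pos hb0 (sub_pos.mpr ht1); have := mul_pos hl0 (sub_pos.mpr htb); linarith
    have hrl : l ≤ r := by
      by_contra hc2
      push Not at hc2
      have h1 : (r - l) * (b * (1 - t) + l * (t - b)) ≤ 0 :=
        mul_nonpos_of_nonpos_of_nonneg (by linarith) hc
      have h2 : -(l * (1 - l) * (t - b)) ≤ 0 := by nlinarith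
      linarith
    have : 0 ≤ (r - l) * Γ := mul_nonneg (by linarith) hΓpos.le
    linarith

/-- The arithmetic heart of the planar lemma. -/
theorem arith2D (b t l r ξ η fb ft gl gr : ℝ)
    (hb0 : 0 ≤ b) (hb1 : b ≤ 1) (ht0 : 0 ≤ t) (ht1 : t ≤ 1)
    (hl0 : 0 ≤ l) (hl1 : l ≤ 1) (hr0 : 0 ≤ r) (hr1 : r ≤ 1)
    (fb0 : 0 ≤ fb) (fb1 : fb ≤ b) (fb2 : ξ - fb ≤ 1 - b) (fb3 : fb ≤ ξ)
    (ft0 : 0 ≤ ft) (ft1 : ft ≤ t) (ft2 : ξ - ft ≤ 1 - t) (ft3 : ft ≤ ξ)
    (gl0 : 0 ≤ gl) (gl1 : gl ≤ l) (gl2 : η - gl ≤ 1 - l) (gl3 : gl ≤ η)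
    (gr0 : 0 ≤ gr) (gr1 : gr ≤ r) (gr2 : η - gr ≤ 1 - r) (gr3 : gr ≤ η)
    (LB : l * fb + b * gl ≤ b * l)
    (LT : (1 - l) * ft + t * (η - gl) ≤ t * (1 - l))
    (RB : r * (ξ - fb) + (1 - b) * gr ≤ (1 - b) * r)
    (RT : (1 - r) * (ξ - ft) + (1 - t) * (η - gr) ≤ (1 - t) * (1 - r))
    (LR : |gr - gl| + |r - l| * ξ ≤ |r - l|)
    (BT : |ft - fb| + |t - b| * η ≤ |t - b|) :
    ξ + η ≤ 1 := by
  -- corner (0,0)
  by_cases hl : l = 0
  · subst hl
    have hgl : gl = 0 := le_antisymm gl1 gl0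
    subst hgl
    refine corner_arith t r ξ η ft gr ht0 ht1 hr0 hr1 (by linarith) ?_ RT ft2
    have := le_abs_self (gr - 0)
    have h1 : |r - 0| = r := by rw [sub_zero, abs_of_nonneg hr0]
    rw [h1] at LR
    linarith
  by_cases hb : b = 0
  · subst hb
    have hfb : fb = 0 := le_antisymm fb1 fb0
    subst hfb
    refine corner_arith t r ξ η ft gr ht0 ht1 hr0 hr1 ?_ (by linarith) RT ft2
    have := le_abs_self (ft - 0)
    have h1 : |t - 0| = t := by rw [sub_zero, abs_of_nonneg ht0]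
    rw [h1] at BT
    linarith
  -- corner (1,1)
  by_cases hr : r = 1
  · subst hr
    have hgr : gr = η := le_antisymm gr3 (by linarith)
    subst hgr
    refine corner_arith (1 - b) (1 - l) ξ gr (ξ - fb) (gr - gl) (by linarith) (by linarith)
      (by linarith) (by linarith) (by linarith) ?_ (by linarith) (by linarith)
    have := le_abs_self (gr - gl)
    rw [abs_of_nonneg (by linarith : (0:ℝ) ≤ 1 - l)] at LR
    linarith
  by_cases ht : t = 1
  · subst ht
    have hft : ft = ξ := le_antisymm ft3 (by linarith)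
    subst hft
    refine corner_arith (1 - b) (1 - l) ft η (ft - fb) (η - gl) (by linarith) (by linarith)
      (by linarith) (by linarith) ?_ (by linarith) (by linarith) (by linarith)
    have := le_abs_self (ft - fb)
    rw [abs_of_nonneg (by linarith : (0:ℝ) ≤ 1 - b)] at BT
    linarith
  -- corner (1,0)
  by_cases hr' : r = 0
  · subst hr'
    have hgr : gr = 0 := le_antisymm gr1 gr0
    subst hgr
    refine corner_arith (1 - t) l ξ η (ξ - ft) gl (by linarith) (by linarith) hl0 hl1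
      (by linarith) ?_ (by linarith) (by linarith)
    have := neg_le_abs (0 - gl)
    have h1 : |0 - l| = l := by rw [zero_sub, abs_neg, abs_of_nonneg hl0]
    rw [h1] at LR
    linarith
  by_cases hb' : b = 1
  · subst hb'
    have hfb : fb = ξ := le_antisymm fb3 (by linarith)
    subst hfb
    refine corner_arith (1 - t) l fb η (fb - ft) gl (by linarith) (by linarith) hl0 hl1
      ?_ (by linarith) (by linarith) (by linarith)
    have := neg_le_abs (ft - fb)
    rw [abs_sub_comm t 1, abs_of_nonneg (by linarith : (0:ℝ) ≤ 1 - t)] at BT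
    linarith
  -- corner (0,1)
  by_cases hl' : l = 1
  · subst hl'
    have hgl : gl = η := le_antisymm gl3 (by linarith)
    subst hgl
    refine corner_arith b (1 - r) ξ gl fb (gl - gr) hb0 hb1 (by linarith) (by linarith)
      (by linarith) ?_ (by linarith) (by linarith)
    have := neg_le_abs (gr - gl)
    rw [abs_sub_comm r 1, abs_of_nonneg (by linarith : (0:ℝ) ≤ 1 - r)] at LR
    linarith
  by_cases ht' : t = 0
  · subst ht'
    have hft : ft = 0 := le_antisymm ft1 ft0
    subst hft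
    refine corner_arith b (1 - r) ξ η fb (η - gr) hb0 hb1 (by linarith) (by linarith)
      ?_ (by linarith) (by linarith) (by linarith)
    have := neg_le_abs (0 - fb)
    have h1 : |0 - b| = b := by rw [zero_sub, abs_neg, abs_of_nonneg hb0]
    rw [h1] at BT
    linarith
  -- generic case
  have hb0' : 0 < b := lt_of_le_of_ne hb0 (Ne.symm hb)
  have hb1' : b < 1 := lt_of_le_of_ne hb1 hb'
  have ht0' : 0 < t := lt_of_le_of_ne ht0 (Ne.symm ht')
  have ht1' : t < 1 := lt_of_le_of_ne ht1 ht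
  have hl0' : 0 < l := lt_of_le_of_ne hl0 (Ne.symm hl)
  have hl1' : l < 1 := lt_of_le_of_ne hl1 hl'
  have hr0' : 0 < r := lt_of_le_of_ne hr0 (Ne.symm hr')
  have hr1' : r < 1 := lt_of_le_of_ne hr1 hr
  by_cases hΓ : (t - b) * (b * r * (1 - t) - t * l * (1 - b) + l * r * (t - b)) ≤ 0
  · exact generic_arith b t l r ξ η fb ft gl gr hb0' hb1' ht0' ht1' hl0' hl1' hr0' hr1'
      LB LT RB RT BT hΓ
  · push Not at hΓ
    have h2 := gamma_dichotomy b t l r hb0' hb1' ht0' ht1' hl0' hl1' hr0' hr1' hΓ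
    have := generic_arith l r b t η ξ gl gr fb ft hl0' hl1' hr0' hr1' hb0' hb1' ht0' ht1'
      (by linarith) (by linarith) (by linarith) (by linarith) LR h2
    linarith

end Vale.Agent.P243
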