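import Mathlib
import Vale.Agent.P243.Arith

open MeasureTheory Set

namespace Vale.Agent.P243

/-- cumulative measure of a set of reals -/
noncomputable def cum (A : Set ℝ) (x : ℝ) : ℝ := (volume (A ∩ Iic x)).toReal

theorem cum_sub (A : Set ℝ) (hA : MeasurableSet A) (hfin : volume A ≠ ⊤) {u v : ℝ} (huv : u ≤ v) :
    cum A v - cum A u = (volume (A ∩ Ioc u v)).toReal := by
  unfold cum
  have hdisj : Disjoint (A ∩ Iic u) (A ∩ Ioc u v) := by
    rw [Set.disjoint_left]
    rintro x ⟨_, hx1⟩ ⟨_, hx2⟩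
    exact absurd hx1 (not_le.mpr hx2.1)
  have hun : A ∩ Iic v = (A ∩ Iic u) ∪ (A ∩ Ioc u v) := by
    rw [← Set.inter_union_distrib_left, Iic_union_Ioc_eq_Iic huv]
  rw [hun, measure_union hdisj (hA.inter measurableSet_Ioc), ENNReal.toReal_add]
  · ring
  · exact ne_top_of_le_ne_top hfin (measure_mono inter_subset_left)
  · exact ne_top_of_le_ne_top hfin (measure_mono inter_subset_left)

theorem cum_mono (A : Set ℝ) (hA : MeasurableSet A) (hfin : volume A ≠ ⊤) {u v : ℝ} (huv : u ≤ v) :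
    cum A u ≤ cum A v := by
  have := cum_sub A hA hfin huv
  have h2 : 0 ≤ (volume (A ∩ Ioc u v)).toReal := ENNReal.toReal_nonneg
  linarith

theorem cum_lip (A : Set ℝ) (hA : MeasurableSet A) (hfin : volume A ≠ ⊤) {u v : ℝ} (huv : u ≤ v) :
    cum A v - cum A u ≤ v - u := by
  rw [cum_sub A hA hfin huv]
  have h1 : volume (A ∩ Ioc u v) ≤ volume (Ioc u v) := measure_mono inter_subset_right
  rw [Real.volume_Ioc] at h1
  have := ENNReal.toReal_mono ENNReal.ofReal_ne_top h1
  rwa [ENNReal.toReal_ofReal (by linarith)] at this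

theorem cum_abs (A : Set ℝ) (hA : MeasurableSet A) (hfin : volume A ≠ ⊤) (u v : ℝ) :
    |cum A v - cum A u| = (volume (A ∩ uIoc u v)).toReal := by
  rcases le_total u v with h | h
  · rw [uIoc_of_le h, ← cum_sub A hA hfin h, abs_of_nonneg]
    have := cum_mono A hA hfin h; linarith
  · rw [uIoc_of_ge h, ← cum_sub A hA hfin h, abs_sub_comm, abs_of_nonneg]
    have := cum_mono A hA hfin h; linarith

/-- measure of the preimage of a set under an affine map of the line -/
theorem vol_preimage_affine (E : Set ℝ) (p d : ℝ) (hd : d ≠ 0) :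
    volume ((fun θ : ℝ => p + θ * d) ⁻¹' E) = ENNReal.ofReal |d⁻¹| * volume E := by
  have h1 : (fun θ : ℝ => p + θ * d) ⁻¹' E = (fun θ : ℝ => d * θ) ⁻¹' ((fun y : ℝ => p + y) ⁻¹' E) := by
    ext θ; simp [mul_comm]
  rw [h1, Real.volume_preimage_mul_left hd, measure_preimage_add]

/-- chord inequality -/
theorem chord (S : Set (ℝ × ℝ)) (hS : Convex ℝ S) (X' Y' : Set ℝ)
    (hX : MeasurableSet X') (hY : MeasurableSet Y') (hXf : volume X' ≠ ⊤) (hYf : volume Y' ≠ ⊤)
    (hav : ∀ p ∈ S, ¬ (p.1 ∈ X' ∧ p.2 ∈ Y')) (P Q : ℝ × ℝ) (hP : P ∈ S) (hQ : Q ∈ S) :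
    |Q.2 - P.2| * |cum X' Q.1 - cum X' P.1| + |Q.1 - P.1| * |cum Y' Q.2 - cum Y' P.2|
      ≤ |Q.1 - P.1| * |Q.2 - P.2| := by
  by_cases ha : Q.1 - P.1 = 0
  · have : Q.1 = P.1 := by linarith
    rw [this]; simp
  by_cases hb : Q.2 - P.2 = 0
  · have : Q.2 = P.2 := by linarith
    rw [this]; simp
  rw [cum_abs X' hX hXf, cum_abs Y' hY hYf]
  set da := Q.1 - P.1 with hda
  set db := Q.2 - P.2 with hdb
  set TX := (fun θ : ℝ => P.1 + θ * da) ⁻¹' (X' ∩ uIoc P.1 Q.1) with hTX
  set TY := (fun θ : ℝ => P.2 + θ * db) ⁻¹' (Y' ∩ uIoc P.2 Q.2) with hTY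
  have sub01 : ∀ (p q θ : ℝ), q - p ≠ 0 → p + θ * (q - p) ∈ uIoc p q → θ ∈ Icc (0:ℝ) 1 := by
    intro p q θ hne hθ
    rcases lt_or_gt_of_ne hne with h | h
    · rw [uIoc_of_ge (by linarith)] at hθ
      constructor
      · by_contra hc; push Not at hc
        have := mul_pos_of_neg_of_neg hc h
        linarith [hθ.2]
      · by_contra hc; push Not at hc
        have : (θ - 1) * (q - p) < 0 := mul_neg_of_pos_of_neg (by linarith) h
        nlinarith [hθ.1]
    · rw [uIoc_of_le (by linarith)] at hθ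
      constructor
      · by_contra hc; push Not at hc
        have := mul_neg_of_neg_of_pos hc h
        linarith [hθ.1]
      · by_contra hc; push Not at hc
        have : 0 < (θ - 1) * (q - p) := mul_pos (by linarith) h
        nlinarith [hθ.2]
  have hTX01 : TX ⊆ Icc 0 1 := fun θ hθ => sub01 P.1 Q.1 θ ha hθ.2
  have hTY01 : TY ⊆ Icc 0 1 := fun θ hθ => sub01 P.2 Q.2 θ hb hθ.2
  have hdisj : Disjoint TX TY := by
    rw [Set.disjoint_left]
    intro θ h1 h2
    have h01 := hTX01 h1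
    have hmem : (1 - θ) • P + θ • Q ∈ S :=
      hS hP hQ (by linarith [h01.2]) h01.1 (by ring)
    apply hav _ hmem
    constructor
    · have : ((1 - θ) • P + θ • Q).1 = P.1 + θ * da := by
        simp [hda]; ring
      rw [this]; exact h1.1
    · have : ((1 - θ) • P + θ • Q).2 = P.2 + θ * db := by
        simp [hdb]; ring
      rw [this]; exact h2.1
  have hmTY : MeasurableSet TY := by
    apply MeasurableSet.preimage (hY.inter measurableSet_uIoc)
    fun_prop
  have hsum : volume TX + volume TY ≤ 1 := by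
    rw [← measure_union hdisj hmTY]
    calc volume (TX ∪ TY) ≤ volume (Icc (0:ℝ) 1) := measure_mono (union_subset hTX01 hTY01)
      _ = 1 := by simp
  rw [hTX, hTY, vol_preimage_affine _ _ _ ha, vol_preimage_affine _ _ _ hb] at hsum
  have hx : volume (X' ∩ uIoc P.1 Q.1) ≠ ⊤ := ne_top_of_le_ne_top hXf (measure_mono inter_subset_left)
  have hy : volume (Y' ∩ uIoc P.2 Q.2) ≠ ⊤ := ne_top_of_le_ne_top hYf (measure_mono inter_subset_left)
  have hreal := ENNReal.toReal_mono ENNReal.one_ne_top hsum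
  rw [ENNReal.toReal_add (ENNReal.mul_ne_top ENNReal.ofReal_ne_top hx)
    (ENNReal.mul_ne_top ENNReal.ofReal_ne_top hy), ENNReal.toReal_mul, ENNReal.toReal_mul,
    ENNReal.toReal_ofReal (abs_nonneg _), ENNReal.toReal_ofReal (abs_nonneg _),
    ENNReal.toReal_one, abs_inv, abs_inv] at hreal
  have hpa : 0 < |da| := abs_pos.mpr ha
  have hpb : 0 < |db| := abs_pos.mpr hb
  have := mul_le_mul_of_nonneg_left hreal (mul_pos hpa hpb).le
  have e : |da| * |db| * (|da|⁻¹ * (volume (X' ∩ uIoc P.1 Q.1)).toReal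
      + |db|⁻¹ * (volume (Y' ∩ uIoc P.2 Q.2)).toReal)
      = |db| * (volume (X' ∩ uIoc P.1 Q.1)).toReal + |da| * (volume (Y' ∩ uIoc P.2 Q.2)).toReal := by
    field_simp
  rw [e] at this
  linarith


theorem cum_left (A : Set ℝ) (u v : ℝ) (hA : A ⊆ Icc u v) : cum A u = 0 := by
  unfold cum
  have : A ∩ Iic u ⊆ {u} := by
    rintro x ⟨h1, h2⟩
    exact le_antisymm h2 (hA h1).1
  have h0 : volume (A ∩ Iic u) = 0 := measure_mono_null this (by simp)
  rw [h0]; simp

theorem cum_right (A : Set ℝ) (u v : ℝ) (hA : A ⊆ Icc u v) : cum A v = (volume A).toReal := by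
  unfold cum
  have : A ∩ Iic v = A := by
    apply inter_eq_left.mpr
    intro x hx; exact (hA hx).2
  rw [this]

/-- The planar lemma: a convex set touching the four sides of a box cannot be covered by
`X × ℝ` and `ℝ × Y` unless the relative measures of `X` and `Y` add up to at least one. -/
theorem planar_cover (S : Set (ℝ × ℝ)) (hS : Convex ℝ S) (i0 i1 j0 j1 l r b t : ℝ)
    (hbox : ∀ p ∈ S, p.1 ∈ Icc i0 i1 ∧ p.2 ∈ Icc j0 j1)
    (hL : (i0, l) ∈ S) (hR : (i1, r) ∈ S) (hB : (b, j0) ∈ S) (hT : (t, j1) ∈ S)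
    (X Y : Set ℝ) (hX : MeasurableSet X) (hY : MeasurableSet Y)
    (hcov : ∀ p ∈ S, p.1 ∈ X ∨ p.2 ∈ Y) :
    (i1 - i0) * (j1 - j0) ≤ (j1 - j0) * (volume (X ∩ Icc i0 i1)).toReal
      + (i1 - i0) * (volume (Y ∩ Icc j0 j1)).toReal := by
  have hl := (hbox _ hL).2
  have hr := (hbox _ hR).2
  have hb := (hbox _ hB).1
  have ht := (hbox _ hT).1
  simp only at hl hr hb ht
  have hi : i0 ≤ i1 := hb.1.trans hb.2
  have hj : j0 ≤ j1 := hl.1.trans hl.2
  set X' := Icc i0 i1 \ X with hX'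
  set Y' := Icc j0 j1 \ Y with hY'
  have mX' : MeasurableSet X' := measurableSet_Icc.diff hX
  have mY' : MeasurableSet Y' := measurableSet_Icc.diff hY
  have sX' : X' ⊆ Icc i0 i1 := sdiff_subset
  have sY' : Y' ⊆ Icc j0 j1 := sdiff_subset
  have fX' : volume X' ≠ ⊤ := ne_top_of_le_ne_top (by simp) (measure_mono sX')
  have fY' : volume Y' ≠ ⊤ := ne_top_of_le_ne_top (by simp) (measure_mono sY')
  have hav : ∀ p ∈ S, ¬ (p.1 ∈ X' ∧ p.2 ∈ Y') := by
    rintro p hp ⟨h1, h2⟩
    rcases hcov p hp with h | h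
    · exact h1.2 h
    · exact h2.2 h
  have eX : (volume (X ∩ Icc i0 i1)).toReal = (i1 - i0) - cum X' i1 := by
    rw [cum_right X' i0 i1 sX']
    have h := measure_inter_add_sdiff (μ := volume) (Icc i0 i1) hX
    have h2 := congrArg ENNReal.toReal h
    rw [ENNReal.toReal_add (ne_top_of_le_ne_top (by simp) (measure_mono inter_subset_left)) fX',
      Real.volume_Icc, ENNReal.toReal_ofReal (by linarith), inter_comm] at h2
    linarith
  have eY : (volume (Y ∩ Icc j0 j1)).toReal = (j1 - j0) - cum Y' j1 := by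
    rw [cum_right Y' j0 j1 sY']
    have h := measure_inter_add_sdiff (μ := volume) (Icc j0 j1) hY
    have h2 := congrArg ENNReal.toReal h
    rw [ENNReal.toReal_add (ne_top_of_le_ne_top (by simp) (measure_mono inter_subset_left)) fY',
      Real.volume_Icc, ENNReal.toReal_ofReal (by linarith), inter_comm] at h2
    linarith
  rw [eX, eY]
  set F := cum X' with hF
  set G := cum Y' with hG
  have F0 : F i0 = 0 := cum_left X' i0 i1 sX'
  have G0 : G j0 = 0 := cum_left Y' j0 j1 sY'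
  have Fm : ∀ {u v : ℝ}, u ≤ v → F u ≤ F v := fun h => cum_mono X' mX' fX' h
  have Gm : ∀ {u v : ℝ}, u ≤ v → G u ≤ G v := fun h => cum_mono Y' mY' fY' h
  have Fl : ∀ {u v : ℝ}, u ≤ v → F v - F u ≤ v - u := fun h => cum_lip X' mX' fX' h
  have Gl : ∀ {u v : ℝ}, u ≤ v → G v - G u ≤ v - u := fun h => cum_lip Y' mY' fY' h
  have ch := chord S hS X' Y' mX' mY' fX' fY' hav
  suffices hmain : (j1 - j0) * F i1 + (i1 - i0) * G j1 ≤ (i1 - i0) * (j1 - j0) by linarith
  rcases hi.eq_or_lt with hi0 | hi0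
  · subst hi0
    have := Fl hi; simp [F0]
  rcases hj.eq_or_lt with hj0 | hj0
  · subst hj0
    have := Gl hj; simp [G0]
  set wI := i1 - i0 with hwI
  set wJ := j1 - j0 with hwJ
  have pI : 0 < wI := by linarith
  have pJ : 0 < wJ := by linarith
  have hW : 0 < wI * wJ := mul_pos pI pJ
  -- the six chords
  have cLB := ch (i0, l) (b, j0) hL hB
  have cLT := ch (i0, l) (t, j1) hL hT
  have cRB := ch (b, j0) (i1, r) hB hR
  have cRT := ch (t, j1) (i1, r) hT hR
  have cLR := ch (i0, l) (i1, r) hL hR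
  have cBT := ch (b, j0) (t, j1) hB hT
  simp only at cLB cLT cRB cRT cLR cBT
  rw [← hF, ← hG] at cLB cLT cRB cRT cLR cBT
  have key := arith2D ((b - i0) / wI) ((t - i0) / wI) ((l - j0) / wJ) ((r - j0) / wJ)
    (F i1 / wI) (G j1 / wJ) (F b / wI) (F t / wI) (G l / wJ) (G r / wJ)
    (div_nonneg (by linarith [hb.1]) pI.le) ((div_le_one pI).mpr (by linarith [hb.2]))
    (div_nonneg (by linarith [ht.1]) pI.le) ((div_le_one pI).mpr (by linarith [ht.2]))
    (div_nonneg (by linarith [hl.1]) pJ.le) ((div_le_one pJ).mpr (by linarith [hl.2]))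
    (div_nonneg (by linarith [hr.1]) pJ.le) ((div_le_one pJ).mpr (by linarith [hr.2]))
    (div_nonneg (by linarith [Fm hb.1]) pI.le)
    (div_le_div_of_nonneg_right (by linarith [Fl hb.1]) pI.le)
    (by rw [← sub_div, le_sub_iff_add_le, ← add_div, div_le_one pI]; linarith [Fl hb.2])
    (div_le_div_of_nonneg_right (Fm hb.2) pI.le)
    (div_nonneg (by linarith [Fm ht.1]) pI.le)
    (div_le_div_of_nonneg_right (by linarith [Fl ht.1]) pI.le)
    (by rw [← sub_div, le_sub_iff_add_le, ← add_div, div_le_one pI]; linarith [Fl ht.2])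
    (div_le_div_of_nonneg_right (Fm ht.2) pI.le)
    (div_nonneg (by linarith [Gm hl.1]) pJ.le)
    (div_le_div_of_nonneg_right (by linarith [Gl hl.1]) pJ.le)
    (by rw [← sub_div, le_sub_iff_add_le, ← add_div, div_le_one pJ]; linarith [Gl hl.2])
    (div_le_div_of_nonneg_right (Gm hl.2) pJ.le)
    (div_nonneg (by linarith [Gm hr.1]) pJ.le)
    (div_le_div_of_nonneg_right (by linarith [Gl hr.1]) pJ.le)
    (by rw [← sub_div, le_sub_iff_add_le, ← add_div, div_le_one pJ]; linarith [Gl hr.2])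
    (div_le_div_of_nonneg_right (Gm hr.2) pJ.le)
    ?_ ?_ ?_ ?_ ?_ ?_
  · have e : F i1 / wI + G j1 / wJ = (wJ * F i1 + wI * G j1) / (wI * wJ) := by field_simp
    rw [e, div_le_one hW] at key
    exact key
  · -- LB
    rw [abs_of_nonpos (by linarith [hl.1] : j0 - l ≤ 0), F0, sub_zero,
      abs_of_nonneg (by linarith [Fm hb.1] : 0 ≤ F b), abs_of_nonneg (by linarith [hb.1] : 0 ≤ b - i0),
      G0, zero_sub, abs_neg, abs_of_nonneg (by linarith [Gm hl.1] : 0 ≤ G l)] at cLB
    have e1 : (l - j0) / wJ * (F b / wI) + (b - i0) / wI * (G l / wJ)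
        = (-(j0 - l) * F b + (b - i0) * G l) / (wI * wJ) := by field_simp; ring
    have e2 : (b - i0) / wI * ((l - j0) / wJ) = ((b - i0) * -(j0 - l)) / (wI * wJ) := by
      field_simp; ring
    rw [e1, e2]
    exact div_le_div_of_nonneg_right cLB hW.le
  · -- LT
    rw [abs_of_nonneg (by linarith [hl.2] : 0 ≤ j1 - l), F0, sub_zero,
      abs_of_nonneg (by linarith [Fm ht.1] : 0 ≤ F t), abs_of_nonneg (by linarith [ht.1] : 0 ≤ t - i0),
      abs_of_nonneg (by linarith [Gm hl.2] : 0 ≤ G j1 - G l)] at cLT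
    have e1 : (1 - (l - j0) / wJ) * (F t / wI) + (t - i0) / wI * (G j1 / wJ - G l / wJ)
        = ((j1 - l) * F t + (t - i0) * (G j1 - G l)) / (wI * wJ) := by
      rw [hwJ]; field_simp; ring
    have e2 : (t - i0) / wI * (1 - (l - j0) / wJ) = ((t - i0) * (j1 - l)) / (wI * wJ) := by
      rw [hwJ]; field_simp; ring
    rw [e1, e2]
    exact div_le_div_of_nonneg_right cLT hW.le
  · -- RB
    rw [abs_of_nonneg (by linarith [hr.1] : 0 ≤ r - j0),
      abs_of_nonneg (by linarith [Fm hb.2] : 0 ≤ F i1 - F b),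
      abs_of_nonneg (by linarith [hb.2] : 0 ≤ i1 - b), G0, sub_zero,
      abs_of_nonneg (by linarith [Gm hr.1] : 0 ≤ G r)] at cRB
    have e1 : (r - j0) / wJ * (F i1 / wI - F b / wI) + (1 - (b - i0) / wI) * (G r / wJ)
        = ((r - j0) * (F i1 - F b) + (i1 - b) * G r) / (wI * wJ) := by
      rw [hwI]; field_simp; ring
    have e2 : (1 - (b - i0) / wI) * ((r - j0) / wJ) = ((i1 - b) * (r - j0)) / (wI * wJ) := by
      rw [hwI]; field_simp; ring
    rw [e1, e2]
    exact div_le_div_of_nonneg_right cRB hW.le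
  · -- RT
    rw [abs_of_nonpos (by linarith [hr.2] : r - j1 ≤ 0),
      abs_of_nonneg (by linarith [Fm ht.2] : 0 ≤ F i1 - F t),
      abs_of_nonneg (by linarith [ht.2] : 0 ≤ i1 - t),
      abs_of_nonpos (by linarith [Gm hr.2] : G r - G j1 ≤ 0)] at cRT
    have e1 : (1 - (r - j0) / wJ) * (F i1 / wI - F t / wI)
        + (1 - (t - i0) / wI) * (G j1 / wJ - G r / wJ)
        = (-(r - j1) * (F i1 - F t) + (i1 - t) * -(G r - G j1)) / (wI * wJ) := by
      rw [hwI, hwJ]; field_simp; ring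
    have e2 : (1 - (t - i0) / wI) * (1 - (r - j0) / wJ) = ((i1 - t) * -(r - j1)) / (wI * wJ) := by
      rw [hwI, hwJ]; field_simp; ring
    rw [e1, e2]
    exact div_le_div_of_nonneg_right cRT hW.le
  · -- LR
    rw [F0, sub_zero, abs_of_nonneg (by linarith [Fm hi] : 0 ≤ F i1), ← hwI, abs_of_pos pI] at cLR
    have e1 : |G r / wJ - G l / wJ| + |(r - j0) / wJ - (l - j0) / wJ| * (F i1 / wI)
        = (|r - l| * F i1 + wI * |G r - G l|) / (wI * wJ) := by
      rw [← sub_div, ← sub_div, abs_div, abs_div, abs_of_pos pJ,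
        show r - j0 - (l - j0) = r - l by ring]
      field_simp; ring
    have e2 : |(r - j0) / wJ - (l - j0) / wJ| = (wI * |r - l|) / (wI * wJ) := by
      rw [← sub_div, abs_div, abs_of_pos pJ, show r - j0 - (l - j0) = r - l by ring]
      field_simp
    rw [e1, e2]
    exact div_le_div_of_nonneg_right cLR hW.le
  · -- BT
    rw [G0, sub_zero, abs_of_nonneg (by linarith [Gm hj] : 0 ≤ G j1), ← hwJ, abs_of_pos pJ] at cBT
    have e1 : |F t / wI - F b / wI| + |(t - i0) / wI - (b - i0) / wI| * (G j1 / wJ)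
        = (wJ * |F t - F b| + |t - b| * G j1) / (wI * wJ) := by
      rw [← sub_div, ← sub_div, abs_div, abs_div, abs_of_pos pI,
        show t - i0 - (b - i0) = t - b by ring]
      field_simp
    have e2 : |(t - i0) / wI - (b - i0) / wI| = (|t - b| * wJ) / (wI * wJ) := by
      rw [← sub_div, abs_div, abs_of_pos pI, show t - i0 - (b - i0) = t - b by ring]
      field_simp
    rw [e1, e2]
    exact div_le_div_of_nonneg_right cBT hW.le

end Vale.Agent.P243
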