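import Mathlib

open MeasureTheory Set

namespace Vale.Agent.P243

variable {P : Set (ℝ × ℝ)}

theorem sec_isCompact (hc : IsCompact P) (z : ℝ) : IsCompact (Prod.mk z ⁻¹' P) := by
  refine IsCompact.of_isClosed_subset (hc.image continuous_snd)
    (hc.isClosed.preimage (by fun_prop)) ?_
  intro y hy
  exact ⟨(z, y), hy, rfl⟩

theorem comb_mem (hv : Convex ℝ P) {z₁ z₂ y₁ y₂ s t : ℝ} (h1 : (z₁, y₁) ∈ P) (h2 : (z₂, y₂) ∈ P)
    (hs : 0 ≤ s) (ht : 0 ≤ t) (hst : s + t = 1) :
    (s * z₁ + t * z₂, s * y₁ + t * y₂) ∈ P := by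
  have := hv h1 h2 hs ht hst
  simpa using this

theorem sec_convex (hv : Convex ℝ P) (z : ℝ) : Convex ℝ (Prod.mk z ⁻¹' P) := by
  intro x hx y hy a b ha hb hab
  have := comb_mem hv hx hy ha hb hab
  have e : a * z + b * z = z := by rw [← add_mul, hab, one_mul]
  rw [e] at this
  simpa using this

theorem sec_eq_Icc (hc : IsCompact P) (hv : Convex ℝ P) {z : ℝ}
    (hne : (Prod.mk z ⁻¹' P).Nonempty) :
    Prod.mk z ⁻¹' P = Icc (sInf (Prod.mk z ⁻¹' P)) (sSup (Prod.mk z ⁻¹' P)) :=
  eq_Icc_of_connected_compact ⟨hne, (sec_convex hv z).isPreconnected⟩ (sec_isCompact hc z)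

/-- width of the vertical section -/
noncomputable def wd (P : Set (ℝ × ℝ)) (z : ℝ) : ℝ := (volume (Prod.mk z ⁻¹' P)).toReal

theorem wd_nonneg (P : Set (ℝ × ℝ)) (z : ℝ) : 0 ≤ wd P z := ENNReal.toReal_nonneg

theorem sec_fin (hc : IsCompact P) (z : ℝ) : volume (Prod.mk z ⁻¹' P) ≠ ⊤ :=
  (sec_isCompact hc z).measure_lt_top.ne

theorem ofReal_wd (hc : IsCompact P) (z : ℝ) :
    ENNReal.ofReal (wd P z) = volume (Prod.mk z ⁻¹' P) :=
  ENNReal.ofReal_toReal (sec_fin hc z)

/-- data of a nonempty section -/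
theorem sec_data (hc : IsCompact P) (hv : Convex ℝ P) {z : ℝ}
    (hne : (Prod.mk z ⁻¹' P).Nonempty) :
    ∃ lo hi : ℝ, lo ≤ hi ∧ (z, lo) ∈ P ∧ (z, hi) ∈ P ∧ Prod.mk z ⁻¹' P = Icc lo hi
      ∧ wd P z = hi - lo := by
  have h := sec_eq_Icc hc hv hne
  set lo := sInf (Prod.mk z ⁻¹' P)
  set hi := sSup (Prod.mk z ⁻¹' P)
  have hle : lo ≤ hi := by
    obtain ⟨y, hy⟩ := hne
    rw [h] at hy
    exact hy.1.trans hy.2
  refine ⟨lo, hi, hle, ?_, ?_, h, ?_⟩
  · have : lo ∈ Prod.mk z ⁻¹' P := by rw [h]; exact left_mem_Icc.mpr hle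
    exact this
  · have : hi ∈ Prod.mk z ⁻¹' P := by rw [h]; exact right_mem_Icc.mpr hle
    exact this
  · unfold wd
    rw [h, Real.volume_Icc, ENNReal.toReal_ofReal (by linarith)]

theorem wd_concave (hc : IsCompact P) (hv : Convex ℝ P) {z₁ z₂ s t : ℝ}
    (h1 : (Prod.mk z₁ ⁻¹' P).Nonempty) (h2 : (Prod.mk z₂ ⁻¹' P).Nonempty)
    (hs : 0 ≤ s) (ht : 0 ≤ t) (hst : s + t = 1) :
    s * wd P z₁ + t * wd P z₂ ≤ wd P (s * z₁ + t * z₂) := by
  obtain ⟨lo₁, hi₁, hle₁, ml₁, mh₁, -, w₁⟩ := sec_data hc hv h1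
  obtain ⟨lo₂, hi₂, hle₂, ml₂, mh₂, -, w₂⟩ := sec_data hc hv h2
  have ml := comb_mem hv ml₁ ml₂ hs ht hst
  have mh := comb_mem hv mh₁ mh₂ hs ht hst
  obtain ⟨lo, hi, hle, -, -, e, w⟩ := sec_data hc hv (z := s * z₁ + t * z₂) ⟨_, ml⟩
  have a1 : s * lo₁ + t * lo₂ ∈ Icc lo hi := by rw [← e]; exact ml
  have a2 : s * hi₁ + t * hi₂ ∈ Icc lo hi := by rw [← e]; exact mh
  rw [w₁, w₂, w]
  linarith [a1.1, a2.2]

theorem sec_nonempty {c d : ℝ} (hr : Prod.fst '' P = Icc c d) {z : ℝ} (hz : z ∈ Icc c d) :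
    (Prod.mk z ⁻¹' P).Nonempty := by
  rw [← hr] at hz
  obtain ⟨p, hp, rfl⟩ := hz
  exact ⟨p.2, hp⟩

theorem sec_empty {c d : ℝ} (hr : Prod.fst '' P = Icc c d) {z : ℝ} (hz : z ∉ Icc c d) :
    Prod.mk z ⁻¹' P = ∅ := by
  rw [← hr] at hz
  ext y
  simp only [mem_preimage, mem_empty_iff_false, iff_false]
  intro hy
  exact hz ⟨(z, y), hy, rfl⟩

theorem vol_eq_lintegral (hc : IsCompact P) :
    volume P = ∫⁻ z, volume (Prod.mk z ⁻¹' P) := by
  rw [Measure.volume_eq_prod, Measure.prod_apply hc.measurableSet]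

theorem hermite (hc : IsCompact P) (hv : Convex ℝ P) {c d : ℝ}
    (hr : Prod.fst '' P = Icc c d) (hcd : c ≤ d) :
    (volume P).toReal ≤ (d - c) * wd P ((c + d) / 2) := by
  set g : ℝ → ENNReal := fun z => volume (Prod.mk z ⁻¹' P) with hgdef
  have hg : Measurable g := measurable_measure_prodMk_left hc.measurableSet
  have hvol : volume P = ∫⁻ z, g z := vol_eq_lintegral hc
  have hsym : ∫⁻ z, g (c + d - z) = ∫⁻ z, g z := lintegral_sub_left_eq_self g (c + d)
  have h2 : 2 * volume P = ∫⁻ z, (g z + g (c + d - z)) := by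
    rw [lintegral_add_left hg, hsym, ← hvol, two_mul]
  have hpt : ∀ z, g z + g (c + d - z)
      ≤ (Icc c d).indicator (fun _ => ENNReal.ofReal (2 * wd P ((c + d) / 2))) z := by
    intro z
    by_cases hz : z ∈ Icc c d
    · have hz' : c + d - z ∈ Icc c d := ⟨by linarith [hz.2], by linarith [hz.1]⟩
      rw [indicator_of_mem hz]
      have hcon := wd_concave hc hv (sec_nonempty hr hz) (sec_nonempty hr hz')
        (s := 1 / 2) (t := 1 / 2) (by norm_num) (by norm_num) (by norm_num)
      have e : 1 / 2 * z + 1 / 2 * (c + d - z) = (c + d) / 2 := by ring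
      rw [e] at hcon
      simp only [hgdef]
      rw [← ofReal_wd hc z, ← ofReal_wd hc (c + d - z),
        ← ENNReal.ofReal_add (wd_nonneg _ _) (wd_nonneg _ _)]
      exact ENNReal.ofReal_le_ofReal (by linarith)
    · have hz' : c + d - z ∉ Icc c d := by
        intro h
        exact hz ⟨by linarith [h.2], by linarith [h.1]⟩
      rw [indicator_of_notMem hz]
      simp only [hgdef]
      rw [sec_empty hr hz, sec_empty hr hz']
      simp
  have h3 : 2 * volume P ≤ ENNReal.ofReal (2 * wd P ((c + d) / 2)) * ENNReal.ofReal (d - c) := by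
    rw [h2]
    refine (lintegral_mono hpt).trans ?_
    rw [lintegral_indicator_const measurableSet_Icc, Real.volume_Icc]
  have h4 := ENNReal.toReal_mono (ENNReal.mul_ne_top ENNReal.ofReal_ne_top ENNReal.ofReal_ne_top) h3
  rw [ENNReal.toReal_mul, ENNReal.toReal_mul,
    ENNReal.toReal_ofReal (by linarith [wd_nonneg P ((c + d) / 2)]),
    ENNReal.toReal_ofReal (by linarith)] at h4
  simp only [ENNReal.toReal_ofNat] at h4
  linarith

theorem tent (hc : IsCompact P) (hv : Convex ℝ P) {c d : ℝ}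
    (hr : Prod.fst '' P = Icc c d) (hcd : c < d) {z : ℝ} (hz : z ∈ Icc c d) :
    2 * min (z - c) (d - z) * wd P ((c + d) / 2) ≤ (d - c) * wd P z := by
  have hl : 0 < d - c := by linarith
  have hmid : (c + d) / 2 ∈ Icc c d := ⟨by linarith, by linarith⟩
  have hw := wd_nonneg P ((c + d) / 2)
  rcases le_total z ((c + d) / 2) with h | h
  · have hcon := wd_concave hc hv (sec_nonempty hr hmid) (sec_nonempty hr (left_mem_Icc.mpr hcd.le))
      (s := 2 * (z - c) / (d - c)) (t := 1 - 2 * (z - c) / (d - c))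
      (div_nonneg (by linarith [hz.1]) hl.le)
      (by rw [sub_nonneg, div_le_one hl]; linarith) (by ring)
    have e : 2 * (z - c) / (d - c) * ((c + d) / 2) + (1 - 2 * (z - c) / (d - c)) * c = z := by
      field_simp; ring
    rw [e] at hcon
    have h0 : 0 ≤ (1 - 2 * (z - c) / (d - c)) * wd P c :=
      mul_nonneg (by rw [sub_nonneg, div_le_one hl]; linarith) (wd_nonneg _ _)
    have h1 : 2 * (z - c) / (d - c) * wd P ((c + d) / 2) ≤ wd P z := by linarith
    have h2 : 2 * (z - c) * wd P ((c + d) / 2) ≤ (d - c) * wd P z := by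
      have := mul_le_mul_of_nonneg_left h1 hl.le
      have e2 : (d - c) * (2 * (z - c) / (d - c) * wd P ((c + d) / 2))
          = 2 * (z - c) * wd P ((c + d) / 2) := by field_simp
      rwa [e2] at this
    have h3 : min (z - c) (d - z) ≤ z - c := min_le_left _ _
    have := mul_le_mul_of_nonneg_right h3 hw
    linarith
  · have hcon := wd_concave hc hv (sec_nonempty hr hmid) (sec_nonempty hr (right_mem_Icc.mpr hcd.le))
      (s := 2 * (d - z) / (d - c)) (t := 1 - 2 * (d - z) / (d - c))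
      (div_nonneg (by linarith [hz.2]) hl.le)
      (by rw [sub_nonneg, div_le_one hl]; linarith) (by ring)
    have e : 2 * (d - z) / (d - c) * ((c + d) / 2) + (1 - 2 * (d - z) / (d - c)) * d = z := by
      field_simp; ring
    rw [e] at hcon
    have h0 : 0 ≤ (1 - 2 * (d - z) / (d - c)) * wd P d :=
      mul_nonneg (by rw [sub_nonneg, div_le_one hl]; linarith) (wd_nonneg _ _)
    have h1 : 2 * (d - z) / (d - c) * wd P ((c + d) / 2) ≤ wd P z := by linarith
    have h2 : 2 * (d - z) * wd P ((c + d) / 2) ≤ (d - c) * wd P z := by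
      have := mul_le_mul_of_nonneg_left h1 hl.le
      have e2 : (d - c) * (2 * (d - z) / (d - c) * wd P ((c + d) / 2))
          = 2 * (d - z) * wd P ((c + d) / 2) := by field_simp
      rwa [e2] at this
    have h3 : min (z - c) (d - z) ≤ d - z := min_le_right _ _
    have := mul_le_mul_of_nonneg_right h3 hw
    linarith

/-- the width of every section is at least the tent function times the mean width -/
theorem wd_lower (hc : IsCompact P) (hv : Convex ℝ P) {c d : ℝ}
    (hr : Prod.fst '' P = Icc c d) (hcd : c < d) {z : ℝ} (hz : z ∈ Icc c d) :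
    2 * min (z - c) (d - z) * (volume P).toReal ≤ (d - c) ^ 2 * wd P z := by
  have h1 := hermite hc hv hr hcd.le
  have h2 := tent hc hv hr hcd hz
  have hm : 0 ≤ min (z - c) (d - z) := le_min (by linarith [hz.1]) (by linarith [hz.2])
  have hl : 0 < d - c := by linarith
  have h3 := mul_le_mul_of_nonneg_left h1 (by linarith : 0 ≤ 2 * min (z - c) (d - z))
  have h4 := mul_le_mul_of_nonneg_left h2 hl.le
  calc 2 * min (z - c) (d - z) * (volume P).toReal
      ≤ 2 * min (z - c) (d - z) * ((d - c) * wd P ((c + d) / 2)) := h3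
    _ = (d - c) * (2 * min (z - c) (d - z) * wd P ((c + d) / 2)) := by ring
    _ ≤ (d - c) * ((d - c) * wd P z) := h4
    _ = (d - c) ^ 2 * wd P z := by ring

/-- integral of the tent function -/
theorem tent_integral {c d : ℝ} (hcd : c < d) :
    ∫ z in c..d, 2 * min (z - c) (d - z) / (d - c) ^ 2 = 1 / 2 := by
  have hl : 0 < d - c := by linarith
  have i1 : ∫ z in c..((c + d) / 2), 2 * min (z - c) (d - z) / (d - c) ^ 2
      = ∫ z in c..((c + d) / 2), (2 / (d - c) ^ 2) * (z - c) := by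
    apply intervalIntegral.integral_congr
    intro z hz
    rw [uIcc_of_le (by linarith)] at hz
    simp only
    rw [min_eq_left (by linarith [hz.2])]
    ring
  have i2 : ∫ z in ((c + d) / 2)..d, 2 * min (z - c) (d - z) / (d - c) ^ 2
      = ∫ z in ((c + d) / 2)..d, (2 / (d - c) ^ 2) * (d - z) := by
    apply intervalIntegral.integral_congr
    intro z hz
    rw [uIcc_of_le (by linarith)] at hz
    simp only
    rw [min_eq_right (by linarith [hz.1])]
    ring
  have hcont : Continuous fun z : ℝ => 2 * min (z - c) (d - z) / (d - c) ^ 2 := by fun_prop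
  rw [← intervalIntegral.integral_add_adjacent_intervals (b := (c + d) / 2)
    (hcont.intervalIntegrable _ _) (hcont.intervalIntegrable _ _), i1, i2]
  rw [intervalIntegral.integral_const_mul, intervalIntegral.integral_const_mul,
    intervalIntegral.integral_sub (continuous_id'.intervalIntegrable _ _)
      (continuous_const.intervalIntegrable _ _),
    intervalIntegral.integral_sub (continuous_const.intervalIntegrable _ _)
      (continuous_id'.intervalIntegrable _ _)]
  simp only [integral_id, intervalIntegral.integral_const, smul_eq_mul]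
  field_simp
  ring

end Vale.Agent.P243
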