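import Mathlib
import Vale.Agent.P243.Planar
import Vale.Agent.P243.Section

open MeasureTheory Set

namespace Vale.Agent.P243

/-- shadow of `K` along the second coordinate axis -/
def sh1 (K : Set (ℝ × ℝ × ℝ)) : Set (ℝ × ℝ) := (fun p : ℝ × ℝ × ℝ => (p.1, p.2.2)) '' K

/-- shadow of `K` along the third coordinate axis -/
def sh2 (K : Set (ℝ × ℝ × ℝ)) : Set (ℝ × ℝ) := (fun p : ℝ × ℝ × ℝ => (p.1, p.2.1)) '' K

variable {K : Set (ℝ × ℝ × ℝ)}

theorem sh1_compact (hc : IsCompact K) : IsCompact (sh1 K) := hc.image (by fun_prop)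

theorem sh2_compact (hc : IsCompact K) : IsCompact (sh2 K) := hc.image (by fun_prop)

theorem sh1_convex (hv : Convex ℝ K) : Convex ℝ (sh1 K) := by
  rintro _ ⟨p, hp, rfl⟩ _ ⟨q, hq, rfl⟩ a b ha hb hab
  exact ⟨a • p + b • q, hv hp hq ha hb hab, by simp⟩

theorem sh2_convex (hv : Convex ℝ K) : Convex ℝ (sh2 K) := by
  rintro _ ⟨p, hp, rfl⟩ _ ⟨q, hq, rfl⟩ a b ha hb hab
  exact ⟨a • p + b • q, hv hp hq ha hb hab, by simp⟩

theorem fst_sh1 : Prod.fst '' sh1 K = Prod.fst '' K := by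
  unfold sh1; rw [image_image]

theorem fst_sh2 : Prod.fst '' sh2 K = Prod.fst '' K := by
  unfold sh2; rw [image_image]

theorem slice_convex (hv : Convex ℝ K) (z : ℝ) : Convex ℝ (Prod.mk z ⁻¹' K) := by
  intro x hx y hy a b ha hb hab
  have := hv hx hy ha hb hab
  have e : a • ((z, x) : ℝ × ℝ × ℝ) + b • ((z, y) : ℝ × ℝ × ℝ) = (z, a • x + b • y) := by
    ext
    · simp only [Prod.fst_add, Prod.smul_fst, smul_eq_mul]
      rw [← add_mul, hab, one_mul]
    · simp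
    · simp
  rw [e] at this
  exact this

theorem slice_ineq (hc : IsCompact K) (hv : Convex ℝ K) (B₁ B₂ : Set (ℝ × ℝ))
    (m1 : MeasurableSet B₁) (m2 : MeasurableSet B₂)
    (hcov : ∀ p ∈ K, (p.1, p.2.2) ∈ B₁ ∨ (p.1, p.2.1) ∈ B₂) {z : ℝ}
    (hz : z ∈ Prod.fst '' K) :
    wd (sh2 K) z * wd (sh1 K) z
      ≤ wd (sh1 K) z * (volume (Prod.mk z ⁻¹' (B₂ ∩ sh2 K))).toReal
        + wd (sh2 K) z * (volume (Prod.mk z ⁻¹' (B₁ ∩ sh1 K))).toReal := by
  obtain ⟨p0, hp0, rfl⟩ := hz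
  set z := p0.1 with hzdef
  have n1 : (Prod.mk z ⁻¹' sh1 K).Nonempty := ⟨p0.2.2, p0, hp0, rfl⟩
  have n2 : (Prod.mk z ⁻¹' sh2 K).Nonempty := ⟨p0.2.1, p0, hp0, rfl⟩
  obtain ⟨j0, j1, hj, mj0, mj1, ej, wj⟩ := sec_data (sh1_compact hc) (sh1_convex hv) n1
  obtain ⟨i0, i1, hi, mi0, mi1, ei, wi⟩ := sec_data (sh2_compact hc) (sh2_convex hv) n2
  obtain ⟨pB, hpB, epB⟩ := mj0
  obtain ⟨pT, hpT, epT⟩ := mj1
  obtain ⟨pL, hpL, epL⟩ := mi0
  obtain ⟨pR, hpR, epR⟩ := mi1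
  simp only [Prod.mk.injEq] at epB epT epL epR
  have hB : (pB.2.1, j0) ∈ Prod.mk z ⁻¹' K := by
    have : (z, pB.2.1, j0) = pB := by ext <;> simp [epB.1, epB.2]
    rw [mem_preimage, this]; exact hpB
  have hT : (pT.2.1, j1) ∈ Prod.mk z ⁻¹' K := by
    have : (z, pT.2.1, j1) = pT := by ext <;> simp [epT.1, epT.2]
    rw [mem_preimage, this]; exact hpT
  have hL : (i0, pL.2.2) ∈ Prod.mk z ⁻¹' K := by
    have : (z, i0, pL.2.2) = pL := by ext <;> simp [epL.1, epL.2]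
    rw [mem_preimage, this]; exact hpL
  have hR : (i1, pR.2.2) ∈ Prod.mk z ⁻¹' K := by
    have : (z, i1, pR.2.2) = pR := by ext <;> simp [epR.1, epR.2]
    rw [mem_preimage, this]; exact hpR
  have hbox : ∀ q ∈ Prod.mk z ⁻¹' K, q.1 ∈ Icc i0 i1 ∧ q.2 ∈ Icc j0 j1 := by
    intro q hq
    constructor
    · rw [← ei]; exact ⟨(z, q), hq, rfl⟩
    · rw [← ej]; exact ⟨(z, q), hq, rfl⟩
  have key := planar_cover (Prod.mk z ⁻¹' K) (slice_convex hv z) i0 i1 j0 j1 _ _ _ _ hbox hL hR hB hT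
    (Prod.mk z ⁻¹' B₂) (Prod.mk z ⁻¹' B₁) (measurable_prodMk_left m2) (measurable_prodMk_left m1)
    (fun q hq => (hcov (z, q) hq).symm)
  rw [preimage_inter, preimage_inter, ei, ej, wi, wj]
  exact key

theorem ratio_arith (θ ℓ W₁ W₂ w₁ w₂ a₁ a₂ : ℝ) (hθ : 0 ≤ θ) (hℓ : 0 < ℓ) (hW₁ : 0 < W₁)
    (hW₂ : 0 < W₂) (ha₁ : 0 ≤ a₁) (ha₂ : 0 ≤ a₂) (h1 : 2 * θ * W₁ ≤ ℓ ^ 2 * w₁)
    (h2 : 2 * θ * W₂ ≤ ℓ ^ 2 * w₂) (hs : w₂ * w₁ ≤ w₁ * a₂ + w₂ * a₁) :
    2 * θ / ℓ ^ 2 ≤ a₁ / W₁ + a₂ / W₂ := by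
  rcases hθ.eq_or_lt with h0 | hpos
  · rw [← h0]; simp only [mul_zero, zero_div]; positivity
  have hl2 : 0 < ℓ ^ 2 := by positivity
  set k := 2 * θ / ℓ ^ 2 with hk
  have hkpos : 0 < k := by positivity
  have k1 : k * W₁ ≤ w₁ := by
    rw [hk, div_mul_eq_mul_div, div_le_iff₀ hl2]; linarith
  have k2 : k * W₂ ≤ w₂ := by
    rw [hk, div_mul_eq_mul_div, div_le_iff₀ hl2]; linarith
  have p1 : 0 < w₁ := lt_of_lt_of_le (by positivity) k1
  have p2 : 0 < w₂ := lt_of_lt_of_le (by positivity) k2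
  have q1 : k * (a₁ / w₁) ≤ a₁ / W₁ := by
    rw [← mul_div_assoc, div_le_div_iff₀ p1 hW₁]
    have := mul_le_mul_of_nonneg_left k1 ha₁
    linarith
  have q2 : k * (a₂ / w₂) ≤ a₂ / W₂ := by
    rw [← mul_div_assoc, div_le_div_iff₀ p2 hW₂]
    have := mul_le_mul_of_nonneg_left k2 ha₂
    linarith
  have q3 : 1 ≤ a₁ / w₁ + a₂ / w₂ := by
    rw [div_add_div _ _ p1.ne' p2.ne', le_div_iff₀ (by positivity)]
    linarith
  have := mul_le_mul_of_nonneg_left q3 hkpos.le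
  linarith

theorem coord_two_cylinders (K : Set (ℝ × ℝ × ℝ)) (hc : IsCompact K) (hv : Convex ℝ K)
    (h1 : 0 < volume (sh1 K)) (h2 : 0 < volume (sh2 K))
    (B₁ B₂ : Set (ℝ × ℝ)) (m1 : MeasurableSet B₁) (m2 : MeasurableSet B₂)
    (hcov : ∀ p ∈ K, (p.1, p.2.2) ∈ B₁ ∨ (p.1, p.2.1) ∈ B₂) :
    1 / 2 ≤ volume B₁ / volume (sh1 K) + volume B₂ / volume (sh2 K) := by
  have c1 := sh1_compact hc
  have c2 := sh2_compact hc
  have v1 := sh1_convex hv
  have v2 := sh2_convex hv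
  have f1 : volume (sh1 K) ≠ ⊤ := c1.measure_lt_top.ne
  have f2 : volume (sh2 K) ≠ ⊤ := c2.measure_lt_top.ne
  have hKne : K.Nonempty := by
    by_contra hne
    rw [not_nonempty_iff_eq_empty] at hne
    rw [hne] at h1
    simp [sh1] at h1
  -- the range of the first coordinate
  have hrange : Prod.fst '' K = Icc (sInf (Prod.fst '' K)) (sSup (Prod.fst '' K)) :=
    eq_Icc_of_connected_compact
      ⟨hKne.image _, (hv.linear_image (LinearMap.fst ℝ ℝ (ℝ × ℝ))).isPreconnected⟩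
      (hc.image continuous_fst)
  set c := sInf (Prod.fst '' K)
  set d := sSup (Prod.fst '' K)
  have r1 : Prod.fst '' sh1 K = Icc c d := fst_sh1.trans hrange
  have r2 : Prod.fst '' sh2 K = Icc c d := fst_sh2.trans hrange
  have hcd0 : c ≤ d := by
    obtain ⟨x, hx⟩ := hKne.image Prod.fst
    rw [hrange] at hx
    exact hx.1.trans hx.2
  have W1 : 0 < (volume (sh1 K)).toReal := ENNReal.toReal_pos h1.ne' f1
  have W2 : 0 < (volume (sh2 K)).toReal := ENNReal.toReal_pos h2.ne' f2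
  have hcd : c < d := by
    rcases hcd0.eq_or_lt with h | h
    · have := hermite c1 v1 r1 hcd0
      rw [h, sub_self, zero_mul] at this
      linarith
    · exact h
  have hl : 0 < d - c := by linarith
  set α₁ : ℝ → ENNReal := fun z => volume (Prod.mk z ⁻¹' (B₁ ∩ sh1 K)) with hα₁
  set α₂ : ℝ → ENNReal := fun z => volume (Prod.mk z ⁻¹' (B₂ ∩ sh2 K)) with hα₂
  have mα₁ : Measurable α₁ := measurable_measure_prodMk_left (m1.inter c1.measurableSet)
  have mα₂ : Measurable α₂ := measurable_measure_prodMk_left (m2.inter c2.measurableSet)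
  have iα₁ : ∫⁻ z, α₁ z = volume (B₁ ∩ sh1 K) := by
    rw [Measure.volume_eq_prod, Measure.prod_apply (m1.inter c1.measurableSet)]
  have iα₂ : ∫⁻ z, α₂ z = volume (B₂ ∩ sh2 K) := by
    rw [Measure.volume_eq_prod, Measure.prod_apply (m2.inter c2.measurableSet)]
  have fα₁ : ∀ z, α₁ z ≠ ⊤ := fun z =>
    ne_top_of_le_ne_top (sec_fin c1 z) (measure_mono (preimage_mono inter_subset_right))
  have fα₂ : ∀ z, α₂ z ≠ ⊤ := fun z =>
    ne_top_of_le_ne_top (sec_fin c2 z) (measure_mono (preimage_mono inter_subset_right))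
  -- pointwise inequality
  have hpt : ∀ z ∈ Ioc c d, ENNReal.ofReal (2 * min (z - c) (d - z) / (d - c) ^ 2)
      ≤ α₁ z / volume (sh1 K) + α₂ z / volume (sh2 K) := by
    intro z hz
    have hz' : z ∈ Icc c d := ⟨hz.1.le, hz.2⟩
    have hs := slice_ineq hc hv B₁ B₂ m1 m2 hcov (z := z) (by rw [hrange]; exact hz')
    have l1 := wd_lower c1 v1 r1 hcd hz'
    have l2 := wd_lower c2 v2 r2 hcd hz'
    have hm : 0 ≤ min (z - c) (d - z) := le_min (by linarith [hz'.1]) (by linarith [hz'.2])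
    have key := ratio_arith (min (z - c) (d - z)) (d - c) _ _ _ _ (α₁ z).toReal (α₂ z).toReal
      hm hl W1 W2 ENNReal.toReal_nonneg ENNReal.toReal_nonneg l1 l2 hs
    have e1 : α₁ z / volume (sh1 K) = ENNReal.ofReal ((α₁ z).toReal / (volume (sh1 K)).toReal) := by
      rw [ENNReal.ofReal_div_of_pos W1, ENNReal.ofReal_toReal (fα₁ z), ENNReal.ofReal_toReal f1]
    have e2 : α₂ z / volume (sh2 K) = ENNReal.ofReal ((α₂ z).toReal / (volume (sh2 K)).toReal) := by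
      rw [ENNReal.ofReal_div_of_pos W2, ENNReal.ofReal_toReal (fα₂ z), ENNReal.ofReal_toReal f2]
    rw [e1, e2, ← ENNReal.ofReal_add (by positivity) (by positivity)]
    exact ENNReal.ofReal_le_ofReal key
  have hcont : Continuous fun z : ℝ => 2 * min (z - c) (d - z) / (d - c) ^ 2 := by fun_prop
  have htent : ∫⁻ z in Ioc c d, ENNReal.ofReal (2 * min (z - c) (d - z) / (d - c) ^ 2) = 1 / 2 := by
    rw [← ofReal_integral_eq_lintegral_ofReal]
    · rw [← intervalIntegral.integral_of_le hcd.le, tent_integral hcd]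
      rw [ENNReal.ofReal_div_of_pos (by norm_num)]
      simp
    · exact (hcont.integrableOn_Icc).mono_set Ioc_subset_Icc_self
    · rw [Filter.EventuallyLE, ae_restrict_iff' measurableSet_Ioc]
      refine Filter.Eventually.of_forall fun z hz => ?_
      have hm : 0 ≤ min (z - c) (d - z) := le_min (by linarith [hz.1]) (by linarith [hz.2])
      simp only [Pi.zero_apply]
      positivity
  calc (1 / 2 : ENNReal)
      = ∫⁻ z in Ioc c d, ENNReal.ofReal (2 * min (z - c) (d - z) / (d - c) ^ 2) := htent.symm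
    _ ≤ ∫⁻ z in Ioc c d, (α₁ z / volume (sh1 K) + α₂ z / volume (sh2 K)) :=
        setLIntegral_mono' measurableSet_Ioc hpt
    _ ≤ ∫⁻ z, (α₁ z / volume (sh1 K) + α₂ z / volume (sh2 K)) := setLIntegral_le_lintegral _ _
    _ = (∫⁻ z, α₁ z) / volume (sh1 K) + (∫⁻ z, α₂ z) / volume (sh2 K) := by
        rw [lintegral_add_left (mα₁.div_const _)]
        simp only [div_eq_mul_inv]
        rw [lintegral_mul_const _ mα₁, lintegral_mul_const _ mα₂]
    _ ≤ volume B₁ / volume (sh1 K) + volume B₂ / volume (sh2 K) := by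
        rw [iα₁, iα₂]
        exact add_le_add (ENNReal.div_le_div_right (measure_mono inter_subset_left) _)
          (ENNReal.div_le_div_right (measure_mono inter_subset_left) _)

end Vale.Agent.P243
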