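import Mathlib
import Vale.Agent.P243.Coord

open MeasureTheory Set Module

namespace Vale.Agent.P243

/-- an explicit invertible linear map of the plane with prescribed first coordinate -/
noncomputable def rotEquiv (p q : ℝ) (h : p ^ 2 + q ^ 2 ≠ 0) : (ℝ × ℝ) ≃ₗ[ℝ] (ℝ × ℝ) where
  toFun v := (p * v.1 + q * v.2, -q * v.1 + p * v.2)
  map_add' u v := by
    ext
    · simp only [Prod.fst_add, Prod.snd_add]; ring
    · simp only [Prod.fst_add, Prod.snd_add]; ring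
  map_smul' c v := by
    ext
    · simp only [Prod.smul_fst, Prod.smul_snd, smul_eq_mul, RingHom.id_apply]; ring
    · simp only [Prod.smul_fst, Prod.smul_snd, smul_eq_mul, RingHom.id_apply]; ring
  invFun w := ((p * w.1 - q * w.2) / (p ^ 2 + q ^ 2), (q * w.1 + p * w.2) / (p ^ 2 + q ^ 2))
  left_inv v := by
    ext
    · simp only; field_simp; ring
    · simp only; field_simp; ring
  right_inv w := by
    ext
    · simp only; field_simp; ring
    · simp only; field_simp; ring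

theorem exists_adapted {F : Type*} [AddCommGroup F] [Module ℝ F] [FiniteDimensional ℝ F]
    (hF : finrank ℝ F = 2) (ζ : F →ₗ[ℝ] ℝ) (hζ : ζ ≠ 0) :
    ∃ L : F ≃ₗ[ℝ] (ℝ × ℝ), ∀ y, (L y).1 = ζ y := by
  have L₀ : F ≃ₗ[ℝ] (ℝ × ℝ) := LinearEquiv.ofFinrankEq F (ℝ × ℝ) (by simp [hF])
  set p := ζ (L₀.symm (1, 0)) with hp
  set q := ζ (L₀.symm (0, 1)) with hq
  have hform : ∀ y, ζ y = p * (L₀ y).1 + q * (L₀ y).2 := by
    intro y
    have e : L₀ y = (L₀ y).1 • ((1 : ℝ), (0 : ℝ)) + (L₀ y).2 • ((0 : ℝ), (1 : ℝ)) := by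
      ext <;> simp
    have e2 : y = (L₀ y).1 • L₀.symm (1, 0) + (L₀ y).2 • L₀.symm (0, 1) := by
      apply L₀.injective
      rw [map_add, map_smul, map_smul, L₀.apply_symm_apply, L₀.apply_symm_apply]
      exact e
    conv_lhs => rw [e2]
    rw [map_add, map_smul, map_smul, smul_eq_mul, smul_eq_mul]
    ring
  have hpq : p ^ 2 + q ^ 2 ≠ 0 := by
    intro h
    have hp0 : p = 0 := by nlinarith [sq_nonneg p, sq_nonneg q]
    have hq0 : q = 0 := by nlinarith [sq_nonneg p, sq_nonneg q]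
    apply hζ
    ext y
    rw [hform y, hp0, hq0]
    simp
  refine ⟨L₀.trans (rotEquiv p q hpq), fun y => ?_⟩
  rw [hform y]
  rfl

theorem exists_scale {F : Type*} [NormedAddCommGroup F] [NormedSpace ℝ F] [FiniteDimensional ℝ F]
    [MeasurableSpace F] [BorelSpace F] (μ : Measure F) [μ.IsAddHaarMeasure]
    (L : F ≃ₗ[ℝ] (ℝ × ℝ)) :
    ∃ κ : ENNReal, κ ≠ 0 ∧ κ ≠ ⊤ ∧ ∀ s : Set F, MeasurableSet s →
      MeasurableSet (L '' s) ∧ μ s = κ * volume (L '' s) := by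
  set Lc := L.toContinuousLinearEquiv with hLc
  have hH : (μ.map Lc).IsAddHaarMeasure := Lc.isAddHaarMeasure_map μ
  have hsm := Measure.isAddLeftInvariant_eq_smul (μ.map Lc) (volume : Measure (ℝ × ℝ))
  have hpos := Measure.addHaarScalarFactor_pos_of_isAddHaarMeasure (μ.map Lc)
    (volume : Measure (ℝ × ℝ))
  refine ⟨(Measure.addHaarScalarFactor (μ.map Lc) (volume : Measure (ℝ × ℝ)) : ENNReal),
    by exact_mod_cast hpos.ne', ENNReal.coe_ne_top, fun s hs => ?_⟩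
  have him : L '' s = Lc.symm ⁻¹' s := by
    rw [L.image_eq_preimage_symm]; rfl
  have hmeas : MeasurableSet (L '' s) := by
    rw [him]; exact Lc.symm.continuous.measurable hs
  have h1 : (μ.map Lc) (L '' s) = μ s := by
    rw [Measure.map_apply Lc.continuous.measurable hmeas]
    congr 1
    exact preimage_image_eq s L.injective
  refine ⟨hmeas, ?_⟩
  rw [← h1]
  have h2 := congrArg (fun ν : Measure (ℝ × ℝ) => ν (L '' s)) hsm
  exact h2

theorem exists_factor {E F : Type*} [AddCommGroup E] [Module ℝ E] [AddCommGroup F] [Module ℝ F]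
    (π : E →ₗ[ℝ] F) (hs : Function.Surjective π) (ζ : E →ₗ[ℝ] ℝ)
    (hle : LinearMap.ker π ≤ LinearMap.ker ζ) : ∃ ζ' : F →ₗ[ℝ] ℝ, ∀ x, ζ' (π x) = ζ x := by
  obtain ⟨g, hg⟩ := π.exists_rightInverse_of_surjective (LinearMap.range_eq_top.mpr hs)
  refine ⟨ζ ∘ₗ g, fun x => ?_⟩
  have h1 : g (π x) - x ∈ LinearMap.ker π := by
    rw [LinearMap.mem_ker, map_sub]
    have := LinearMap.congr_fun hg (π x)
    simp only [LinearMap.coe_comp, Function.comp_apply, LinearMap.id_coe, id_eq] at this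
    rw [this, sub_self]
  have h2 := hle h1
  rw [LinearMap.mem_ker, map_sub, sub_eq_zero] at h2
  exact h2

theorem exists_common_functional {E F₁ F₂ : Type*} [AddCommGroup E] [Module ℝ E]
    [FiniteDimensional ℝ E] [AddCommGroup F₁] [Module ℝ F₁] [FiniteDimensional ℝ F₁]
    [AddCommGroup F₂] [Module ℝ F₂] [FiniteDimensional ℝ F₂]
    (hE : finrank ℝ E = 3) (hF₁ : finrank ℝ F₁ = 2) (hF₂ : finrank ℝ F₂ = 2)
    (π₁ : E →ₗ[ℝ] F₁) (π₂ : E →ₗ[ℝ] F₂)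
    (s₁ : Function.Surjective π₁) (s₂ : Function.Surjective π₂) :
    ∃ (ζ₁ : F₁ →ₗ[ℝ] ℝ) (ζ₂ : F₂ →ₗ[ℝ] ℝ), ζ₁ ≠ 0 ∧ ζ₂ ≠ 0 ∧ ∀ x, ζ₁ (π₁ x) = ζ₂ (π₂ x) := by
  have k1 : finrank ℝ (LinearMap.ker π₁) = 1 := by
    have := π₁.finrank_range_add_finrank_ker
    rw [LinearMap.range_eq_top.mpr s₁, finrank_top, hF₁, hE] at this
    omega
  have k2 : finrank ℝ (LinearMap.ker π₂) = 1 := by
    have := π₂.finrank_range_add_finrank_ker
    rw [LinearMap.range_eq_top.mpr s₂, finrank_top, hF₂, hE] at this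
    omega
  have hlt : LinearMap.ker π₁ ⊔ LinearMap.ker π₂ < ⊤ := by
    rw [lt_top_iff_ne_top]
    intro h
    have := Submodule.finrank_add_le_finrank_add_finrank (LinearMap.ker π₁) (LinearMap.ker π₂)
    rw [h, finrank_top, hE, k1, k2] at this
    omega
  obtain ⟨ζ, hζ, hle⟩ := Submodule.exists_le_ker_of_lt_top _ hlt
  obtain ⟨ζ₁, h1⟩ := exists_factor π₁ s₁ ζ (le_sup_left.trans hle)
  obtain ⟨ζ₂, h2⟩ := exists_factor π₂ s₂ ζ (le_sup_right.trans hle)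
  refine ⟨ζ₁, ζ₂, ?_, ?_, fun x => (h1 x).trans (h2 x).symm⟩
  · intro h0
    apply hζ
    ext x
    rw [← h1 x, h0]; simp
  · intro h0
    apply hζ
    ext x
    rw [← h2 x, h0]; simp

/-- Two cylinders, in invariant form: `π₁`, `π₂` are linear surjections of a three-dimensional
space onto planes, areas are measured by arbitrary Haar measures of the planes. -/
theorem abstract_two_cylinders {E F₁ F₂ : Type*}
    [NormedAddCommGroup E] [NormedSpace ℝ E] [FiniteDimensional ℝ E]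
    [NormedAddCommGroup F₁] [NormedSpace ℝ F₁] [FiniteDimensional ℝ F₁]
    [MeasurableSpace F₁] [BorelSpace F₁]
    [NormedAddCommGroup F₂] [NormedSpace ℝ F₂] [FiniteDimensional ℝ F₂]
    [MeasurableSpace F₂] [BorelSpace F₂]
    (μ₁ : Measure F₁) [μ₁.IsAddHaarMeasure] (μ₂ : Measure F₂) [μ₂.IsAddHaarMeasure]
    (hE : finrank ℝ E = 3) (hF₁ : finrank ℝ F₁ = 2) (hF₂ : finrank ℝ F₂ = 2)
    (π₁ : E →ₗ[ℝ] F₁) (π₂ : E →ₗ[ℝ] F₂)
    (s₁ : Function.Surjective π₁) (s₂ : Function.Surjective π₂)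
    (K : Set E) (hc : IsCompact K) (hv : Convex ℝ K) (hi : (interior K).Nonempty)
    (B₁ : Set F₁) (B₂ : Set F₂) (m1 : MeasurableSet B₁) (m2 : MeasurableSet B₂)
    (hcov : ∀ x ∈ K, π₁ x ∈ B₁ ∨ π₂ x ∈ B₂) :
    1 / 2 ≤ μ₁ B₁ / μ₁ (π₁ '' K) + μ₂ B₂ / μ₂ (π₂ '' K) := by
  obtain ⟨ζ₁, ζ₂, n1, n2, hζ⟩ := exists_common_functional hE hF₁ hF₂ π₁ π₂ s₁ s₂
  obtain ⟨L₁, hL₁⟩ := exists_adapted hF₁ ζ₁ n1
  obtain ⟨L₂, hL₂⟩ := exists_adapted hF₂ ζ₂ n2
  obtain ⟨κ₁, a1, b1, hκ₁⟩ := exists_scale μ₁ L₁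
  obtain ⟨κ₂, a2, b2, hκ₂⟩ := exists_scale μ₂ L₂
  have cK1 : IsCompact (π₁ '' K) := hc.image π₁.continuous_of_finiteDimensional
  have cK2 : IsCompact (π₂ '' K) := hc.image π₂.continuous_of_finiteDimensional
  have p1 : 0 < μ₁ (π₁ '' K) :=
    lt_of_lt_of_le ((π₁.isOpenMap_of_finiteDimensional s₁ _ isOpen_interior).measure_pos μ₁
      (hi.image _)) (measure_mono (image_mono interior_subset))
  have p2 : 0 < μ₂ (π₂ '' K) :=
    lt_of_lt_of_le ((π₂.isOpenMap_of_finiteDimensional s₂ _ isOpen_interior).measure_pos μ₂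
      (hi.image _)) (measure_mono (image_mono interior_subset))
  set Φ : E →ₗ[ℝ] ℝ × ℝ × ℝ := (ζ₁ ∘ₗ π₁).prod
    (((LinearMap.snd ℝ ℝ ℝ) ∘ₗ L₂.toLinearMap ∘ₗ π₂).prod
      ((LinearMap.snd ℝ ℝ ℝ) ∘ₗ L₁.toLinearMap ∘ₗ π₁)) with hΦ
  have e1 : ∀ x, ((Φ x).1, (Φ x).2.2) = L₁ (π₁ x) := fun x => Prod.ext (hL₁ _).symm rfl
  have e2 : ∀ x, ((Φ x).1, (Φ x).2.1) = L₂ (π₂ x) := fun x =>
    Prod.ext ((hζ x).trans (hL₂ _).symm) rfl
  have S1 : sh1 (Φ '' K) = L₁ '' (π₁ '' K) := by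
    unfold sh1
    rw [image_image, image_image]
    exact image_congr fun x _ => e1 x
  have S2 : sh2 (Φ '' K) = L₂ '' (π₂ '' K) := by
    unfold sh2
    rw [image_image, image_image]
    exact image_congr fun x _ => e2 x
  have q1 := (hκ₁ _ cK1.measurableSet).2
  have q2 := (hκ₂ _ cK2.measurableSet).2
  have P1 : 0 < volume (sh1 (Φ '' K)) := by
    rw [S1, pos_iff_ne_zero]
    intro h0
    rw [q1, h0, mul_zero] at p1
    exact lt_irrefl _ p1
  have P2 : 0 < volume (sh2 (Φ '' K)) := by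
    rw [S2, pos_iff_ne_zero]
    intro h0
    rw [q2, h0, mul_zero] at p2
    exact lt_irrefl _ p2
  have main := coord_two_cylinders (Φ '' K) (hc.image Φ.continuous_of_finiteDimensional)
    (hv.linear_image Φ) P1 P2 (L₁ '' B₁) (L₂ '' B₂) (hκ₁ _ m1).1 (hκ₂ _ m2).1 (by
      rintro _ ⟨x, hx, rfl⟩
      rw [e1, e2]
      rcases hcov x hx with h | h
      · exact Or.inl (mem_image_of_mem _ h)
      · exact Or.inr (mem_image_of_mem _ h))
  rw [S1, S2] at main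
  rw [(hκ₁ _ m1).2, (hκ₂ _ m2).2, q1, q2, ENNReal.mul_div_mul_left _ _ a1 b1,
    ENNReal.mul_div_mul_left _ _ a2 b2]
  exact main

end Vale.Agent.P243
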