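import Mathlib

open Set MeasureTheory

namespace Vale.Agent.P243

variable {H : Type*} [NormedAddCommGroup H] [InnerProductSpace ℝ H]

/-- every width of `S` is at least `w` -/
def HasWidth (S : Set H) (w : ℝ) : Prop :=
  ∀ n : H, ‖n‖ = 1 → ∃ x ∈ S, ∃ y ∈ S, w ≤ inner ℝ (x - y) n

/-- sign of a bit -/
def sg (b : Bool) : ℝ := if b then 1 else -1

theorem sg_sq (b : Bool) : sg b * sg b = 1 := by cases b <;> simp [sg]

theorem sg_not (b : Bool) : sg (!b) = - sg b := by cases b <;> simp [sg]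

theorem sg_abs (b : Bool) (t : ℝ) : sg b * t ≤ |t| := by
  cases b
  · simp only [sg]; simpa using neg_le_abs t
  · simp only [sg]; simpa using le_abs_self t

theorem exists_chord [CompleteSpace H] {S : Set H} (hc : IsCompact S) (hv : Convex ℝ S)
    (hne : S.Nonempty) {w : ℝ} (hw0 : 0 ≤ w) (hw : HasWidth S w) (d : H) (hd : ‖d‖ = 1) :
    ∃ p ∈ S, p + w • d ∈ S := by
  by_contra hcon
  push Not at hcon
  set S' : Set H := (fun x => x + w • d) '' S with hS'
  have hc' : IsCompact S' := hc.image (by fun_prop)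
  have hv' : Convex ℝ S' := by
    rintro _ ⟨x, hx, rfl⟩ _ ⟨y, hy, rfl⟩ a b ha hb hab
    refine ⟨a • x + b • y, hv hx hy ha hb hab, ?_⟩
    have e : a • (x + w • d) + b • (y + w • d) = a • x + b • y + (a + b) • (w • d) := by module
    simp only
    rw [e, hab, one_smul]
  have hdisj : Disjoint S S' := by
    rw [Set.disjoint_left]
    rintro q hq ⟨p, hp, rfl⟩
    exact hcon p hp hq
  obtain ⟨f, α, β, h1, hαβ, h2⟩ := geometric_hahn_banach_compact_closed hv hc hv' hc'.isClosed hdisj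
  set n₀ : H := (InnerProductSpace.toDual ℝ H).symm f with hn₀
  have hf : ∀ x, inner ℝ n₀ x = f x := fun x => InnerProductSpace.toDual_symm_apply
  obtain ⟨p, hp⟩ := hne
  have hsep : ∀ x ∈ S, ∀ y ∈ S, f (x - y) < w * f d := by
    intro x hx y hy
    have a1 := h1 x hx
    have a2 := h2 (y + w • d) ⟨y, hy, rfl⟩
    rw [map_add, map_smul, smul_eq_mul] at a2
    rw [map_sub]
    linarith
  have hpos : 0 < w * f d := by
    have := hsep p hp p hp
    rwa [sub_self, map_zero] at this
  have hn0 : n₀ ≠ 0 := by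
    intro h0
    have : f d = 0 := by rw [← hf d, h0, inner_zero_left]
    rw [this, mul_zero] at hpos
    exact lt_irrefl _ hpos
  have hnpos : 0 < ‖n₀‖ := norm_pos_iff.mpr hn0
  have hfd : f d ≤ ‖n₀‖ := by
    rw [← hf d]
    calc inner ℝ n₀ d ≤ ‖n₀‖ * ‖d‖ := real_inner_le_norm _ _
      _ = ‖n₀‖ := by rw [hd, mul_one]
  obtain ⟨x, hx, y, hy, hxy⟩ := hw (‖n₀‖⁻¹ • n₀) (by
    rw [norm_smul, norm_inv, norm_norm, inv_mul_cancel₀ hnpos.ne'])
  rw [inner_smul_right, real_inner_comm, hf] at hxy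
  have h3 := hsep x hx y hy
  have h4 : w * f d ≤ w * ‖n₀‖ := mul_le_mul_of_nonneg_left hfd hw0
  have h5 : ‖n₀‖⁻¹ * f (x - y) < w := by
    rw [inv_mul_lt_iff₀ hnpos]
    linarith
  linarith

theorem erosion [CompleteSpace H] {S : Set H} (hc : IsCompact S) (hv : Convex ℝ S)
    (hne : S.Nonempty) {w : ℝ} (hw : HasWidth S w) (v : H) (hvw : ‖v‖ ≤ w) :
    ∃ S' : Set H, IsCompact S' ∧ Convex ℝ S' ∧ S'.Nonempty ∧ HasWidth S' (w - ‖v‖) ∧
      ∀ x ∈ S', x ∈ S ∧ x - v ∈ S := by
  by_cases hv0 : v = 0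
  · refine ⟨S, hc, hv, hne, ?_, fun x hx => ⟨hx, ?_⟩⟩
    · rw [hv0, norm_zero, sub_zero]; exact hw
    · rw [hv0, sub_zero]; exact hx
  have hvpos : 0 < ‖v‖ := norm_pos_iff.mpr hv0
  have hwpos : 0 < w := lt_of_lt_of_le hvpos hvw
  set d : H := ‖v‖⁻¹ • v with hd
  have hd1 : ‖d‖ = 1 := by
    rw [hd, norm_smul, norm_inv, norm_norm, inv_mul_cancel₀ hvpos.ne']
  obtain ⟨p, hp, hq⟩ := exists_chord hc hv hne hwpos.le hw d hd1
  set μ : ℝ := ‖v‖ / w with hμ
  have hμ0 : 0 ≤ μ := div_nonneg hvpos.le hwpos.le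
  have hμ1 : μ ≤ 1 := (div_le_one hwpos).mpr hvw
  have hμw : μ * w = ‖v‖ := div_mul_cancel₀ _ hwpos.ne'
  have hvd : ‖v‖ • d = v := by
    rw [hd, smul_smul, mul_inv_cancel₀ hvpos.ne', one_smul]
  refine ⟨(fun x => (1 - μ) • x + μ • (p + w • d)) '' S, hc.image (by fun_prop), ?_,
    hne.image _, ?_, ?_⟩
  · rintro _ ⟨x, hx, rfl⟩ _ ⟨y, hy, rfl⟩ a b ha hb hab
    refine ⟨a • x + b • y, hv hx hy ha hb hab, ?_⟩
    have e : a • ((1 - μ) • x + μ • (p + w • d)) + b • ((1 - μ) • y + μ • (p + w • d))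
        = (1 - μ) • (a • x + b • y) + (a + b) • (μ • (p + w • d)) := by module
    simp only
    rw [e, hab, one_smul]
  · intro n hn
    obtain ⟨x, hx, y, hy, hxy⟩ := hw n hn
    refine ⟨_, ⟨x, hx, rfl⟩, _, ⟨y, hy, rfl⟩, ?_⟩
    have e : (1 - μ) • x + μ • (p + w • d) - ((1 - μ) • y + μ • (p + w • d))
        = (1 - μ) • (x - y) := by module
    simp only
    rw [e, inner_smul_left]
    simp only [conj_trivial]
    have := mul_le_mul_of_nonneg_left hxy (by linarith : 0 ≤ 1 - μ)
    have e2 : (1 - μ) * w = w - ‖v‖ := by rw [sub_mul, one_mul, hμw]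
    linarith
  · rintro _ ⟨x, hx, rfl⟩
    refine ⟨hv hx hq (by linarith) hμ0 (by ring), ?_⟩
    have e : (1 - μ) • x + μ • (p + w • d) - v = (1 - μ) • x + μ • p := by
      have : μ • (p + w • d) = μ • p + v := by
        rw [smul_add, smul_smul, hμw, hvd]
      rw [this]; abel
    rw [e]
    exact hv hx hp (by linarith) hμ0 (by ring)

theorem zonotope [CompleteSpace H] {ι : Type*} (h : ι → H) (s : Finset ι) :
    ∀ (S : Set H) (w : ℝ), IsCompact S → Convex ℝ S → S.Nonempty → HasWidth S w →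
      (∑ i ∈ s, 2 * ‖h i‖) ≤ w → ∃ c : H, ∀ ε : ι → Bool, c + ∑ i ∈ s, sg (ε i) • h i ∈ S := by
  classical
  induction s using Finset.induction_on with
  | empty =>
    intro S w _ _ hne _ _
    obtain ⟨c, hc⟩ := hne
    exact ⟨c, fun ε => by simpa using hc⟩
  | insert a s ha ih =>
    intro S w hc hv hne hw hsum
    rw [Finset.sum_insert ha] at hsum
    have hnn : 0 ≤ ∑ i ∈ s, 2 * ‖h i‖ := Finset.sum_nonneg fun i _ => by positivity
    have hnorm : ‖(2 : ℝ) • h a‖ = 2 * ‖h a‖ := by rw [norm_smul]; simp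
    obtain ⟨S', hc', hv', hne', hw', hS'⟩ := erosion hc hv hne hw ((2 : ℝ) • h a)
      (by rw [hnorm]; linarith)
    rw [hnorm] at hw'
    obtain ⟨c', hc''⟩ := ih S' (w - 2 * ‖h a‖) hc' hv' hne' hw' (by linarith)
    refine ⟨c' - h a, fun ε => ?_⟩
    rw [Finset.sum_insert ha]
    have hmem := hS' _ (hc'' ε)
    cases hε : ε a
    · have e : c' - h a + (sg false • h a + ∑ i ∈ s, sg (ε i) • h i)
          = c' + ∑ i ∈ s, sg (ε i) • h i - (2 : ℝ) • h a := by
        simp only [sg]; simp only [Bool.false_eq_true, if_false]; module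
      rw [e]; exact hmem.2
    · have e : c' - h a + (sg true • h a + ∑ i ∈ s, sg (ε i) • h i)
          = c' + ∑ i ∈ s, sg (ε i) • h i := by
        simp only [sg]; simp only [if_true]; module
      rw [e]; exact hmem.1

theorem sum_update_eq {ι M : Type*} [Fintype ι] [DecidableEq ι] [AddCommGroup M] (F : ι → M)
    (k : ι) (b : M) : ∑ i, Function.update F k b i = ∑ i, F i - F k + b := by
  rw [Finset.sum_update_of_mem (Finset.mem_univ k)]
  have h := Finset.add_sum_erase Finset.univ F (Finset.mem_univ k)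
  rw [Finset.sdiff_singleton_eq_erase, ← h]
  abel

/-- Bang's lemma: a suitable signed sum avoids all open planks -/
theorem bang_signs {ι : Type*} [Fintype ι] (u : ι → H) (hu : ∀ i, ‖u i‖ = 1) (a : ι → ℝ)
    (ha : ∀ i, 0 ≤ a i) (m : ι → ℝ) :
    ∃ ε : ι → Bool, ∀ k, a k ≤ |inner ℝ (∑ i, sg (ε i) • (a i • u i)) (u k) - m k| := by
  classical
  set X : (ι → Bool) → H := fun ε => ∑ i, sg (ε i) • (a i • u i) with hX
  set G : (ι → Bool) → ℝ := fun ε => ‖X ε‖ ^ 2 - 2 * ∑ i, sg (ε i) * (a i * m i) with hG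
  obtain ⟨ε, hε⟩ := Finite.exists_max G
  refine ⟨ε, fun k => ?_⟩
  set ε' : ι → Bool := Function.update ε k (!ε k) with hε'
  set σ := sg (ε k) with hσ
  have hσ2 : σ * σ = 1 := sg_sq _
  have e1 : X ε' = X ε - (2 * σ * a k) • u k := by
    have f1 : (fun i => sg (ε' i) • (a i • u i))
        = Function.update (fun i => sg (ε i) • (a i • u i)) k (sg (!ε k) • (a k • u k)) := by
      funext i
      by_cases hik : i = k
      · subst hik; simp [hε']
      · simp [hε', Function.update_of_ne hik]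
    simp only [hX]
    rw [f1, sum_update_eq, sg_not]
    module
  have e2 : ∑ i, sg (ε' i) * (a i * m i) = ∑ i, sg (ε i) * (a i * m i) - 2 * σ * (a k * m k) := by
    have f1 : (fun i => sg (ε' i) * (a i * m i))
        = Function.update (fun i => sg (ε i) * (a i * m i)) k (sg (!ε k) * (a k * m k)) := by
      funext i
      by_cases hik : i = k
      · subst hik; simp [hε']
      · simp [hε', Function.update_of_ne hik]
    rw [f1, sum_update_eq, sg_not]
    ring
  have hmax := hε ε'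
  simp only [hG] at hmax
  rw [e1, e2, norm_sub_sq_real, inner_smul_right, norm_smul, hu k, mul_one, Real.norm_eq_abs,
    sq_abs] at hmax
  have h4 : (2 * σ * a k) ^ 2 = 4 * a k ^ 2 := by
    calc (2 * σ * a k) ^ 2 = 4 * (σ * σ) * a k ^ 2 := by ring
      _ = 4 * a k ^ 2 := by rw [hσ2]; ring
  rw [h4] at hmax
  have h5 : a k * a k ≤ a k * (σ * (inner ℝ (X ε) (u k) - m k)) := by nlinarith
  rcases (ha k).eq_or_lt with h0 | hpos
  · rw [← h0]; exact abs_nonneg _
  · have h6 : a k ≤ σ * (inner ℝ (X ε) (u k) - m k) := le_of_mul_le_mul_left h5 hpos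
    exact h6.trans (sg_abs _ _)

/-- Bang's plank theorem for finitely many open planks -/
theorem bang_open [CompleteSpace H] {ι : Type*} [Fintype ι] {S : Set H} (hc : IsCompact S)
    (hv : Convex ℝ S) (hne : S.Nonempty) {w : ℝ} (hw : HasWidth S w)
    (u : ι → H) (hu : ∀ i, ‖u i‖ = 1) (a : ι → ℝ) (ha : ∀ i, 0 ≤ a i) (m : ι → ℝ)
    (hcov : ∀ x ∈ S, ∃ i, |inner ℝ x (u i) - m i| < a i) : w < ∑ i, 2 * a i := by
  by_contra hcon
  push Not at hcon
  have hnorm : ∀ i, ‖a i • u i‖ = a i := fun i => by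
    rw [norm_smul, hu i, mul_one, Real.norm_eq_abs, abs_of_nonneg (ha i)]
  obtain ⟨c, hcmem⟩ := zonotope (fun i => a i • u i) Finset.univ S w hc hv hne hw (by
    simp only [hnorm]; exact hcon)
  obtain ⟨ε, hε⟩ := bang_signs u hu a ha (fun k => m k - inner ℝ c (u k))
  obtain ⟨i, hi⟩ := hcov _ (hcmem ε)
  have := hε i
  rw [inner_add_left] at hi
  have e : inner ℝ c (u i) + inner ℝ (∑ i, sg (ε i) • a i • u i) (u i) - m i
      = inner ℝ (∑ i, sg (ε i) • a i • u i) (u i) - (m i - inner ℝ c (u i)) := by ring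
  rw [e] at hi
  linarith

theorem interval_facts (X : Set ℝ) (hX : X.OrdConnected) (hb : Bornology.IsBounded X) :
    X ⊆ Icc (sInf X) (sSup X) ∧ (volume X).toReal = sSup X - sInf X ∧ sInf X ≤ sSup X := by
  rcases X.eq_empty_or_nonempty with rfl | hne
  · simp
  have hbb := hb.bddBelow
  have hba := hb.bddAbove
  have h1 : X ⊆ Icc (sInf X) (sSup X) := fun x hx => ⟨csInf_le hbb hx, le_csSup hba hx⟩
  have hle : sInf X ≤ sSup X := by
    obtain ⟨x, hx⟩ := hne
    exact (h1 hx).1.trans (h1 hx).2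
  have h2 : Ioo (sInf X) (sSup X) ⊆ X := by
    intro t ht
    obtain ⟨x, hx, hxt⟩ := exists_lt_of_csInf_lt hne ht.1
    obtain ⟨y, hy, hty⟩ := exists_lt_of_lt_csSup hne ht.2
    exact hX.out hx hy ⟨hxt.le, hty.le⟩
  refine ⟨h1, ?_, hle⟩
  have v1 : volume X ≤ ENNReal.ofReal (sSup X - sInf X) := by
    rw [← Real.volume_Icc]; exact measure_mono h1
  have v2 : ENNReal.ofReal (sSup X - sInf X) ≤ volume X := by
    rw [← Real.volume_Ioo]; exact measure_mono h2
  rw [le_antisymm v1 v2, ENNReal.toReal_ofReal (by linarith)]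

/-- Bang's plank theorem for planks given by bounded intervals of any kind -/
theorem bang_intervals [CompleteSpace H] {ι : Type*} [Fintype ι] {S : Set H} (hc : IsCompact S)
    (hv : Convex ℝ S) (hne : S.Nonempty) {w : ℝ} (hw : HasWidth S w)
    (u : ι → H) (hu : ∀ i, ‖u i‖ = 1) (X : ι → Set ℝ) (hX : ∀ i, (X i).OrdConnected)
    (hb : ∀ i, Bornology.IsBounded (X i))
    (hcov : ∀ x ∈ S, ∃ i, inner ℝ x (u i) ∈ X i) : w ≤ ∑ i, (volume (X i)).toReal := by
  apply le_of_forall_pos_le_add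
  intro η hη
  set N : ℝ := (Fintype.card ι : ℝ) + 1 with hN
  have hNpos : 0 < N := by positivity
  set δ : ℝ := η / (2 * N) with hδ
  have hδpos : 0 < δ := by positivity
  have key := bang_open hc hv hne hw u hu
    (fun i => (sSup (X i) - sInf (X i)) / 2 + δ)
    (fun i => by have := (interval_facts (X i) (hX i) (hb i)).2.2; linarith)
    (fun i => (sInf (X i) + sSup (X i)) / 2)
    (fun x hx => by
      obtain ⟨i, hi⟩ := hcov x hx
      refine ⟨i, ?_⟩
      have := (interval_facts (X i) (hX i) (hb i)).1 hi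
      rw [abs_lt]
      constructor <;> linarith [this.1, this.2])
  have e : ∑ i, 2 * ((sSup (X i) - sInf (X i)) / 2 + δ)
      = ∑ i, (volume (X i)).toReal + 2 * δ * (Fintype.card ι : ℝ) := by
    have : ∀ i, 2 * ((sSup (X i) - sInf (X i)) / 2 + δ) = (volume (X i)).toReal + 2 * δ := fun i => by
      rw [(interval_facts (X i) (hX i) (hb i)).2.1]; ring
    simp only [this]
    rw [Finset.sum_add_distrib, Finset.sum_const, Finset.card_univ, nsmul_eq_mul]
    ring
  rw [e] at key
  have h2 : 2 * δ * (Fintype.card ι : ℝ) ≤ η := by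
    have : 2 * δ * N = η := by rw [hδ]; field_simp
    have h3 : 2 * δ * (Fintype.card ι : ℝ) ≤ 2 * δ * N :=
      mul_le_mul_of_nonneg_left (by rw [hN]; linarith) (by positivity)
    linarith
  linarith

/-- grid cell -/
def cell (δ : ℝ) (k : ℤ) : Set ℝ := Ico (k • δ) ((k + 1) • δ)

theorem cell_vol {δ : ℝ} (k : ℤ) : volume (cell δ k) = ENNReal.ofReal δ := by
  unfold cell
  rw [Real.volume_Ico]
  congr 1
  rw [add_smul, one_smul]; ring

/-- plank theorem for open subsets of the line in place of intervals -/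
theorem bang_open_sets [CompleteSpace H] {ι : Type*} [Fintype ι] {S : Set H} (hc : IsCompact S)
    (hv : Convex ℝ S) (hne : S.Nonempty) {w : ℝ} (hw : HasWidth S w)
    (u : ι → H) (hu : ∀ i, ‖u i‖ = 1) (U : ι → Set ℝ) (hU : ∀ i, IsOpen (U i))
    (hcov : ∀ x ∈ S, ∃ i, inner ℝ x (u i) ∈ U i) : ENNReal.ofReal w ≤ ∑ i, volume (U i) := by
  classical
  have hopen : ∀ i, IsOpen ((fun x : H => inner ℝ x (u i)) ⁻¹' U i) := fun i =>
    (hU i).preimage (by fun_prop)
  obtain ⟨δ, hδ, hball⟩ := lebesgue_number_lemma_of_metric hc hopen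
    (fun x hx => mem_iUnion.mpr (hcov x hx))
  have hint : ∀ x ∈ S, ∃ i, ∀ t : ℝ, |t - inner ℝ x (u i)| < δ → t ∈ U i := by
    intro x hx
    obtain ⟨i, hi⟩ := hball x hx
    refine ⟨i, fun t ht => ?_⟩
    have h1 : x + (t - inner ℝ x (u i)) • u i ∈ Metric.ball x δ := by
      rw [Metric.mem_ball, dist_eq_norm, add_sub_cancel_left, norm_smul, hu i, mul_one]
      exact ht
    have h2 := hi h1
    simp only [mem_preimage] at h2
    rw [inner_add_left, inner_smul_left, real_inner_self_eq_norm_sq, hu i] at h2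
    simpa using h2
  obtain ⟨R, hR⟩ := hc.isBounded.exists_norm_le
  set M : ℤ := ⌈R / δ⌉ + 1 with hM
  set KK : ι → Finset ℤ := fun i => (Finset.Icc (-M) M).filter (fun k => cell δ k ⊆ U i) with hKK
  have key := bang_intervals hc hv hne hw (ι := (i : ι) × (KK i))
    (fun q => u q.1) (fun q => hu q.1) (fun q => cell δ q.2)
    (fun q => ordConnected_Ico) (fun q => Metric.isBounded_Ico _ _)
    (fun x hx => by
      obtain ⟨i, hi⟩ := hint x hx
      set t₀ := inner ℝ x (u i) with ht₀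
      set k : ℤ := ⌊t₀ / δ⌋ with hk
      have k1 : (k : ℝ) * δ ≤ t₀ := by
        have := Int.floor_le (t₀ / δ)
        rwa [le_div_iff₀ hδ] at this
      have k2 : t₀ < ((k : ℝ) + 1) * δ := by
        have := Int.lt_floor_add_one (t₀ / δ)
        rwa [div_lt_iff₀ hδ] at this
      have hmem : t₀ ∈ cell δ k := by
        unfold cell
        rw [zsmul_eq_mul, zsmul_eq_mul]
        push_cast
        exact ⟨k1, k2⟩
      have hsub : cell δ k ⊆ U i := by
        intro t ht
        unfold cell at ht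
        rw [zsmul_eq_mul, zsmul_eq_mul] at ht
        push_cast at ht
        apply hi
        rw [abs_lt]
        constructor <;> nlinarith [ht.1, ht.2]
      have habs : |t₀| ≤ R := by
        calc |t₀| ≤ ‖x‖ * ‖u i‖ := abs_real_inner_le_norm _ _
          _ = ‖x‖ := by rw [hu i, mul_one]
          _ ≤ R := hR x hx
      have hRδ : R / δ ≤ (⌈R / δ⌉ : ℝ) := Int.le_ceil _
      have b1 : k ≤ M := by
        have : (k : ℝ) ≤ (M : ℝ) := by
          have h1 : (k : ℝ) ≤ t₀ / δ := Int.floor_le _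
          have h2 : t₀ / δ ≤ R / δ := div_le_div_of_nonneg_right ((le_abs_self _).trans habs) hδ.le
          rw [hM]; push_cast; linarith
        exact_mod_cast this
      have b2 : -M ≤ k := by
        have : (-(M : ℝ)) ≤ (k : ℝ) := by
          have h1 : t₀ / δ < (k : ℝ) + 1 := Int.lt_floor_add_one _
          have h2 : -(R / δ) ≤ t₀ / δ := by
            rw [← neg_div]
            exact div_le_div_of_nonneg_right (by linarith [neg_abs_le t₀]) hδ.le
          rw [hM]; push_cast; linarith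
        exact_mod_cast this
      have hkK : k ∈ KK i := by
        simp only [hKK, Finset.mem_filter, Finset.mem_Icc]
        exact ⟨⟨b2, b1⟩, hsub⟩
      exact ⟨⟨i, ⟨k, hkK⟩⟩, hmem⟩)
  have hfin : ∀ i, ∑ k ∈ KK i, volume (cell δ k) ≤ volume (U i) := by
    intro i
    rw [← measure_biUnion_finset]
    · apply measure_mono
      intro t ht
      simp only [mem_iUnion] at ht
      obtain ⟨k, hk, htk⟩ := ht
      exact (Finset.mem_filter.mp hk).2 htk
    · intro k _ k' _ hkk'
      exact pairwise_disjoint_Ico_zsmul δ hkk'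
    · intro k _
      exact measurableSet_Ico
  calc ENNReal.ofReal w
      ≤ ENNReal.ofReal (∑ q : (i : ι) × (KK i), (volume (cell δ q.2)).toReal) :=
        ENNReal.ofReal_le_ofReal key
    _ = ∑ q : (i : ι) × (KK i), volume (cell δ q.2) := by
        rw [ENNReal.ofReal_sum_of_nonneg (fun _ _ => ENNReal.toReal_nonneg)]
        refine Finset.sum_congr rfl fun q _ => ?_
        rw [ENNReal.ofReal_toReal]
        rw [cell_vol]; exact ENNReal.ofReal_ne_top
    _ = ∑ i, ∑ k ∈ KK i, volume (cell δ k) := by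
        rw [Fintype.sum_sigma]
        refine Finset.sum_congr rfl fun i _ => ?_
        exact Finset.sum_coe_sort (KK i) (fun k => volume (cell δ k))
    _ ≤ ∑ i, volume (U i) := Finset.sum_le_sum fun i _ => hfin i

/-- plank theorem for arbitrary subsets of the line in place of intervals -/
theorem bang_sets [CompleteSpace H] {ι : Type*} [Fintype ι] {S : Set H} (hc : IsCompact S)
    (hv : Convex ℝ S) (hne : S.Nonempty) {w : ℝ} (hw : HasWidth S w)
    (u : ι → H) (hu : ∀ i, ‖u i‖ = 1) (X : ι → Set ℝ)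
    (hcov : ∀ x ∈ S, ∃ i, inner ℝ x (u i) ∈ X i) : ENNReal.ofReal w ≤ ∑ i, volume (X i) := by
  by_cases htop : ∃ i, volume (X i) = ⊤
  · obtain ⟨i, hi⟩ := htop
    have : (⊤ : ENNReal) ≤ ∑ i, volume (X i) := by
      rw [← hi]; exact Finset.single_le_sum (f := fun i => volume (X i)) (fun _ _ => zero_le) (Finset.mem_univ i)
    exact le_top.trans this
  push Not at htop
  apply ENNReal.le_of_forall_pos_le_add
  intro η hη _
  set N : NNReal := (Fintype.card ι : NNReal) + 1 with hN
  have hNpos : 0 < N := by positivity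
  have hδ : ((η / N : NNReal) : ENNReal) ≠ 0 := by
    have : 0 < η / N := div_pos hη hNpos
    exact_mod_cast this.ne'
  choose U hXU hUo hUv using fun i => (X i).exists_isOpen_lt_add (htop i) hδ
  have key := bang_open_sets hc hv hne hw u hu U hUo (fun x hx => by
    obtain ⟨i, hi⟩ := hcov x hx
    exact ⟨i, hXU i hi⟩)
  refine key.trans ?_
  calc ∑ i, volume (U i) ≤ ∑ i, (volume (X i) + ((η / N : NNReal) : ENNReal)) :=
        Finset.sum_le_sum fun i _ => (hUv i).le
    _ = ∑ i, volume (X i) + (Fintype.card ι : ENNReal) * ((η / N : NNReal) : ENNReal) := by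
        rw [Finset.sum_add_distrib, Finset.sum_const, Finset.card_univ, nsmul_eq_mul]
    _ ≤ ∑ i, volume (X i) + η := by
        gcongr
        have h1 : (Fintype.card ι : NNReal) * (η / N) ≤ η := by
          have h2 : (Fintype.card ι : NNReal) ≤ N := by rw [hN]; exact le_self_add
          calc (Fintype.card ι : NNReal) * (η / N) ≤ N * (η / N) := by gcongr
            _ = η := mul_div_cancel₀ _ hNpos.ne'
        exact_mod_cast h1

end Vale.Agent.P243
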