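import Mathlib

open MeasureTheory Set Module

namespace Vale.Agent.P243

variable {E3 : Type*} [NormedAddCommGroup E3] [InnerProductSpace ℝ E3] [FiniteDimensional ℝ E3]
  [MeasurableSpace E3] [BorelSpace E3]

/-- orthonormal coordinates on the plane orthogonal to `u` -/
theorem plane_chart (hE : finrank ℝ E3 = 3) (u a b : E3) (hu : u ≠ 0) (ha : ‖a‖ = 1)
    (hb : ‖b‖ = 1) (hab : inner ℝ a b = 0) (hau : inner ℝ u a = 0) (hbu : inner ℝ u b = 0) :
    ∃ Ψ : (ℝ ∙ u)ᗮ ≃ᵐ ℝ × ℝ, MeasurePreserving Ψ volume volume ∧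
      ∀ y : (ℝ ∙ u)ᗮ, Ψ y = (inner ℝ (y : E3) a, inner ℝ (y : E3) b) := by
  have : Fact (finrank ℝ E3 = 2 + 1) := ⟨hE⟩
  have h2 : finrank ℝ (ℝ ∙ u)ᗮ = 2 := Submodule.finrank_orthogonal_span_singleton hu
  have ha' : a ∈ (ℝ ∙ u)ᗮ := Submodule.mem_orthogonal_singleton_iff_inner_right.mpr hau
  have hb' : b ∈ (ℝ ∙ u)ᗮ := Submodule.mem_orthogonal_singleton_iff_inner_right.mpr hbu
  let v : Fin 2 → (ℝ ∙ u)ᗮ := ![⟨a, ha'⟩, ⟨b, hb'⟩]
  have hba : inner ℝ b a = 0 := by rw [real_inner_comm]; exact hab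
  have hv : Orthonormal ℝ v := by
    rw [orthonormal_iff_ite]
    intro i j
    fin_cases i <;> fin_cases j <;>
      simp [v, Submodule.coe_inner, hab, hba, ha, hb, real_inner_self_eq_norm_sq]
  have hsp : ⊤ ≤ Submodule.span ℝ (Set.range v) := by
    rw [hv.linearIndependent.span_eq_top_of_card_eq_finrank (by simp [h2])]
  let bas := OrthonormalBasis.mk hv hsp
  have m1 := bas.measurePreserving_measurableEquiv
  have m2 := EuclideanSpace.volume_preserving_symm_measurableEquiv_toLp (Fin 2)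
  have m3 := volume_preserving_finTwoArrow ℝ
  refine ⟨(bas.measurableEquiv.trans (MeasurableEquiv.toLp 2 (Fin 2 → ℝ)).symm).trans
    MeasurableEquiv.finTwoArrow, (m1.trans m2).trans m3, ?_⟩
  intro y
  have r : ∀ i, bas.repr y i = inner ℝ (v i) y := fun i => by
    rw [OrthonormalBasis.repr_apply_apply]
    simp [bas]
  ext
  · show bas.repr y 0 = _
    rw [r 0, real_inner_comm]
    rfl
  · show bas.repr y 1 = _
    rw [r 1, real_inner_comm]
    rfl

end Vale.Agent.P243
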