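import Mathlib
import Vale.Agent.P243.Section
import Vale.Agent.P243.Bang

open MeasureTheory Set

namespace Vale.Agent.P243

variable {H : Type*} [NormedAddCommGroup H] [InnerProductSpace ℝ H]

/-- projection of `K ⊆ ℝ × H` to the plane with coordinates `(z, ⟨y, n⟩)` -/
def shn (n : H) (K : Set (ℝ × H)) : Set (ℝ × ℝ) :=
  (fun p : ℝ × H => (p.1, inner ℝ p.2 n)) '' K

variable {K : Set (ℝ × H)}

theorem shn_compact (hc : IsCompact K) (n : H) : IsCompact (shn n K) := hc.image (by fun_prop)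

theorem shn_convex (hv : Convex ℝ K) (n : H) : Convex ℝ (shn n K) := by
  rintro _ ⟨p, hp, rfl⟩ _ ⟨q, hq, rfl⟩ a b ha hb hab
  refine ⟨a • p + b • q, hv hp hq ha hb hab, ?_⟩
  simp [inner_add_left, inner_smul_left]

theorem fst_shn (n : H) : Prod.fst '' shn n K = Prod.fst '' K := by
  unfold shn; rw [image_image]

theorem sliceH_compact (hc : IsCompact K) (z : ℝ) : IsCompact (Prod.mk z ⁻¹' K) := by
  refine IsCompact.of_isClosed_subset (hc.image continuous_snd)
    (hc.isClosed.preimage (by fun_prop)) ?_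
  intro y hy
  exact ⟨(z, y), hy, rfl⟩

theorem sliceH_convex (hv : Convex ℝ K) (z : ℝ) : Convex ℝ (Prod.mk z ⁻¹' K) := by
  intro x hx y hy a b ha hb hab
  have := hv hx hy ha hb hab
  have e : a • ((z, x) : ℝ × H) + b • ((z, y) : ℝ × H) = (z, a • x + b • y) := by
    ext
    · simp only [Prod.fst_add, Prod.smul_fst, smul_eq_mul]
      rw [← add_mul, hab, one_mul]
    · simp
  rw [e] at this
  exact this

theorem coplanar_coord [CompleteSpace H] {ι : Type*} [Fintype ι] (K : Set (ℝ × H))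
    (hc : IsCompact K) (hv : Convex ℝ K) (hne : K.Nonempty)
    (n : ι → H) (hn : ∀ i, ‖n i‖ = 1) (B : ι → Set (ℝ × ℝ)) (hB : ∀ i, MeasurableSet (B i))
    (hcov : ∀ p ∈ K, ∃ i, (p.1, inner ℝ p.2 (n i)) ∈ B i)
    (A : ℝ) (hA : ∀ e : H, ‖e‖ = 1 → ENNReal.ofReal A ≤ volume (shn e K)) :
    ENNReal.ofReal (A / 2) ≤ ∑ i, volume (B i) := by
  rcases le_or_gt A 0 with hA0 | hApos
  · rw [ENNReal.ofReal_of_nonpos (by linarith)]; exact zero_le
  have hrange : Prod.fst '' K = Icc (sInf (Prod.fst '' K)) (sSup (Prod.fst '' K)) :=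
    eq_Icc_of_connected_compact
      ⟨hne.image _, (hv.linear_image (LinearMap.fst ℝ ℝ H)).isPreconnected⟩
      (hc.image continuous_fst)
  set c := sInf (Prod.fst '' K)
  set d := sSup (Prod.fst '' K)
  have hr : ∀ e : H, Prod.fst '' shn e K = Icc c d := fun e => (fst_shn e).trans hrange
  have hcd0 : c ≤ d := by
    obtain ⟨x, hx⟩ := hne.image Prod.fst
    rw [hrange] at hx
    exact hx.1.trans hx.2
  have hAr : ∀ e : H, ‖e‖ = 1 → A ≤ (volume (shn e K)).toReal := fun e he => by
    have := ENNReal.toReal_mono (shn_compact hc e).measure_lt_top.ne (hA e he)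
    rwa [ENNReal.toReal_ofReal hApos.le] at this
  obtain ⟨p0, hp0⟩ := hne
  obtain ⟨i0, -⟩ := hcov p0 hp0
  have hcd : c < d := by
    rcases hcd0.eq_or_lt with h | h
    · have h1 := hermite (shn_compact hc (n i0)) (shn_convex hv (n i0)) (hr (n i0)) hcd0
      have h2 := hAr (n i0) (hn i0)
      rw [h, sub_self, zero_mul] at h1
      linarith
    · exact h
  have hl : 0 < d - c := by linarith
  -- pointwise inequality
  have hpt : ∀ z ∈ Ioc c d, ENNReal.ofReal (A * (2 * min (z - c) (d - z) / (d - c) ^ 2))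
      ≤ ∑ i, volume (Prod.mk z ⁻¹' B i) := by
    intro z hz
    have hz' : z ∈ Icc c d := ⟨hz.1.le, hz.2⟩
    have hm : 0 ≤ min (z - c) (d - z) := le_min (by linarith [hz'.1]) (by linarith [hz'.2])
    have hzK : z ∈ Prod.fst '' K := by rw [hrange]; exact hz'
    obtain ⟨pz, hpz, hpz1⟩ := hzK
    have hSne : (Prod.mk z ⁻¹' K).Nonempty := ⟨pz.2, by
      rw [mem_preimage, ← hpz1]; exact hpz⟩
    have hwidth : HasWidth (Prod.mk z ⁻¹' K) (A * (2 * min (z - c) (d - z) / (d - c) ^ 2)) := by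
      intro e he
      have ce := shn_compact hc e
      have ve := shn_convex hv e
      obtain ⟨lo, hi, -, mlo, mhi, -, hwd⟩ := sec_data ce ve (sec_nonempty (hr e) hz')
      obtain ⟨q1, hq1, eq1⟩ := mhi
      obtain ⟨q2, hq2, eq2⟩ := mlo
      simp only [Prod.mk.injEq] at eq1 eq2
      refine ⟨q1.2, ?_, q2.2, ?_, ?_⟩
      · rw [mem_preimage, ← eq1.1]; exact hq1
      · rw [mem_preimage, ← eq2.1]; exact hq2
      · rw [inner_sub_left, eq1.2, eq2.2, ← hwd]
        have l1 := wd_lower ce ve (hr e) hcd hz'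
        have l2 := hAr e he
        have l3 : 2 * min (z - c) (d - z) * A ≤ (d - c) ^ 2 * wd (shn e K) z :=
          (mul_le_mul_of_nonneg_left l2 (by linarith)).trans l1
        rw [mul_div_assoc', div_le_iff₀ (by positivity)]
        linarith
    exact bang_sets (sliceH_compact hc z) (sliceH_convex hv z) hSne hwidth n hn
      (fun i => Prod.mk z ⁻¹' B i) (fun y hy => hcov (z, y) hy)
  have hcont : Continuous fun z : ℝ => A * (2 * min (z - c) (d - z) / (d - c) ^ 2) := by fun_prop
  have htent : ∫⁻ z in Ioc c d, ENNReal.ofReal (A * (2 * min (z - c) (d - z) / (d - c) ^ 2))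
      = ENNReal.ofReal (A / 2) := by
    rw [← ofReal_integral_eq_lintegral_ofReal]
    · rw [← intervalIntegral.integral_of_le hcd.le, intervalIntegral.integral_const_mul,
        tent_integral hcd]
      congr 1; ring
    · exact (hcont.integrableOn_Icc).mono_set Ioc_subset_Icc_self
    · rw [Filter.EventuallyLE, ae_restrict_iff' measurableSet_Ioc]
      refine Filter.Eventually.of_forall fun z hz => ?_
      have hm : 0 ≤ min (z - c) (d - z) := le_min (by linarith [hz.1]) (by linarith [hz.2])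
      simp only [Pi.zero_apply]
      positivity
  calc ENNReal.ofReal (A / 2)
      = ∫⁻ z in Ioc c d, ENNReal.ofReal (A * (2 * min (z - c) (d - z) / (d - c) ^ 2)) :=
        htent.symm
    _ ≤ ∫⁻ z in Ioc c d, ∑ i, volume (Prod.mk z ⁻¹' B i) :=
        setLIntegral_mono' measurableSet_Ioc hpt
    _ ≤ ∫⁻ z, ∑ i, volume (Prod.mk z ⁻¹' B i) := setLIntegral_le_lintegral _ _
    _ = ∑ i, ∫⁻ z, volume (Prod.mk z ⁻¹' B i) :=
        lintegral_finsetSum _ fun i _ => measurable_measure_prodMk_left (hB i)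
    _ = ∑ i, volume (B i) := by
        refine Finset.sum_congr rfl fun i _ => ?_
        rw [Measure.volume_eq_prod, Measure.prod_apply (hB i)]

end Vale.Agent.P243
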