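import Mathlib
import Vale.Agent.P243.Abstract

open MeasureTheory Set Module

namespace Vale.Agent.P243

variable {E3 : Type*} [NormedAddCommGroup E3] [InnerProductSpace ℝ E3] [FiniteDimensional ℝ E3]
  [MeasurableSpace E3] [BorelSpace E3]

theorem euclid_two (hE : finrank ℝ E3 = 3) (K : Set E3) (hc : IsCompact K) (hv : Convex ℝ K)
    (hi : (interior K).Nonempty)
    (u₁ u₂ : E3) (hu₁ : u₁ ≠ 0) (hu₂ : u₂ ≠ 0)
    (B₁ : Set (ℝ ∙ u₁)ᗮ) (B₂ : Set (ℝ ∙ u₂)ᗮ) (m1 : MeasurableSet B₁) (m2 : MeasurableSet B₂)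
    (hcov : ∀ x ∈ K, (ℝ ∙ u₁)ᗮ.orthogonalProjectionOnto x ∈ B₁
      ∨ (ℝ ∙ u₂)ᗮ.orthogonalProjectionOnto x ∈ B₂) :
    1 / 2 ≤ volume B₁ / volume ((ℝ ∙ u₁)ᗮ.orthogonalProjectionOnto '' K)
      + volume B₂ / volume ((ℝ ∙ u₂)ᗮ.orthogonalProjectionOnto '' K) := by
  have : Fact (finrank ℝ E3 = 2 + 1) := ⟨hE⟩
  have h1 : finrank ℝ (ℝ ∙ u₁)ᗮ = 2 := Submodule.finrank_orthogonal_span_singleton hu₁
  have h2 : finrank ℝ (ℝ ∙ u₂)ᗮ = 2 := Submodule.finrank_orthogonal_span_singleton hu₂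
  exact abstract_two_cylinders volume volume hE h1 h2
    ((ℝ ∙ u₁)ᗮ.orthogonalProjectionOnto : E3 →ₗ[ℝ] (ℝ ∙ u₁)ᗮ)
    ((ℝ ∙ u₂)ᗮ.orthogonalProjectionOnto : E3 →ₗ[ℝ] (ℝ ∙ u₂)ᗮ)
    (fun y => ⟨y, Submodule.orthogonalProjectionOnto_mem_subspace_eq_self y⟩)
    (fun y => ⟨y, Submodule.orthogonalProjectionOnto_mem_subspace_eq_self y⟩)
    K hc hv hi B₁ B₂ m1 m2 hcov

/-- transport of a base along an equality of planes -/
def tr {P : Submodule ℝ E3} (S : Submodule ℝ E3) (B : Set P) : Set S :=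
  {y : S | ∃ b ∈ B, (b : E3) = (y : E3)}

theorem transport (P S : Submodule ℝ E3) (h : P = S) (B : Set P) (hB : MeasurableSet B)
    (K : Set E3) :
    MeasurableSet (tr S B) ∧ volume (tr S B) = volume B ∧
      volume (P.orthogonalProjectionOnto '' K) = volume (S.orthogonalProjectionOnto '' K) ∧
      ∀ x : E3, ((P.orthogonalProjectionOnto x : P) : E3) = (S.orthogonalProjectionOnto x : S) := by
  subst h
  have e : tr P B = B := by
    ext y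
    constructor
    · rintro ⟨b, hb, e⟩
      rwa [← Subtype.ext e]
    · intro hy
      exact ⟨y, hy, rfl⟩
  rw [e]
  exact ⟨hB, rfl, rfl, fun _ => rfl⟩

theorem proj_cyl (u : E3) (b : (ℝ ∙ u)ᗮ) (t : ℝ) :
    (ℝ ∙ u)ᗮ.orthogonalProjectionOnto ((b : E3) + t • u) = b := by
  have h0 : (ℝ ∙ u)ᗮ.orthogonalProjectionOnto u = 0 := by
    rw [Submodule.orthogonalProjectionOnto_eq_zero_iff]
    exact Submodule.le_orthogonal_orthogonal _ (Submodule.mem_span_singleton_self u)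
  rw [map_add, map_smul, h0, smul_zero, add_zero,
    Submodule.orthogonalProjectionOnto_mem_subspace_eq_self]

theorem family_core (hE : finrank ℝ E3 = 3) {ι : Type*} [Fintype ι] (K : Set E3) (hc : IsCompact K) (hv : Convex ℝ K)
    (hi : (interior K).Nonempty)
    (u : ι → E3) (B : (i : ι) → Set (ℝ ∙ u i)ᗮ) (hB : ∀ i, MeasurableSet (B i))
    (hcov : ∀ x ∈ K, ∃ i, ∃ b ∈ B i, ∃ t : ℝ, x = (b : E3) + t • u i)
    (v w : E3) (hv0 : v ≠ 0) (hw0 : w ≠ 0) (hdir : ∀ i, ℝ ∙ u i = ℝ ∙ v ∨ ℝ ∙ u i = ℝ ∙ w) :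
    1 / 2 ≤ ∑ i, volume (B i) / volume ((ℝ ∙ u i)ᗮ.orthogonalProjectionOnto '' K) := by
  classical
  set I₁ := Finset.univ.filter (fun i => ℝ ∙ u i = ℝ ∙ v) with hI₁
  set I₂ := Finset.univ.filter (fun i => ¬ ℝ ∙ u i = ℝ ∙ v) with hI₂
  have hP1 : ∀ i ∈ I₁, (ℝ ∙ u i)ᗮ = (ℝ ∙ v)ᗮ := fun i hi => by
    rw [(Finset.mem_filter.mp hi).2]
  have hP2 : ∀ i ∈ I₂, (ℝ ∙ u i)ᗮ = (ℝ ∙ w)ᗮ := fun i hi => by
    rcases hdir i with h | h
    · exact absurd h (Finset.mem_filter.mp hi).2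
    · rw [h]
  set B₁ : Set (ℝ ∙ v)ᗮ := ⋃ i ∈ I₁, tr (ℝ ∙ v)ᗮ (B i) with hB₁
  set B₂ : Set (ℝ ∙ w)ᗮ := ⋃ i ∈ I₂, tr (ℝ ∙ w)ᗮ (B i) with hB₂
  have m1 : MeasurableSet B₁ :=
    Finset.measurableSet_biUnion _ fun i hi => (transport _ _ (hP1 i hi) (B i) (hB i) K).1
  have m2 : MeasurableSet B₂ :=
    Finset.measurableSet_biUnion _ fun i hi => (transport _ _ (hP2 i hi) (B i) (hB i) K).1
  have cover : ∀ x ∈ K, (ℝ ∙ v)ᗮ.orthogonalProjectionOnto x ∈ B₁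
      ∨ (ℝ ∙ w)ᗮ.orthogonalProjectionOnto x ∈ B₂ := by
    intro x hx
    obtain ⟨i, b, hb, t, rfl⟩ := hcov x hx
    have hpr := proj_cyl (u i) b t
    by_cases hiv : ℝ ∙ u i = ℝ ∙ v
    · left
      have hi1 : i ∈ I₁ := Finset.mem_filter.mpr ⟨Finset.mem_univ _, hiv⟩
      have h4 := (transport _ _ (hP1 i hi1) (B i) (hB i) K).2.2.2 ((b : E3) + t • u i)
      rw [hpr] at h4
      exact mem_biUnion hi1 ⟨b, hb, h4⟩
    · right
      have hi2 : i ∈ I₂ := Finset.mem_filter.mpr ⟨Finset.mem_univ _, hiv⟩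
      have h4 := (transport _ _ (hP2 i hi2) (B i) (hB i) K).2.2.2 ((b : E3) + t • u i)
      rw [hpr] at h4
      exact mem_biUnion hi2 ⟨b, hb, h4⟩
  have main := euclid_two hE K hc hv hi v w hv0 hw0 B₁ B₂ m1 m2 cover
  have b1 : volume B₁ ≤ ∑ i ∈ I₁, volume (B i) :=
    (measure_biUnion_finset_le _ _).trans
      (Finset.sum_le_sum fun i hi => (transport _ _ (hP1 i hi) (B i) (hB i) K).2.1.le)
  have b2 : volume B₂ ≤ ∑ i ∈ I₂, volume (B i) :=
    (measure_biUnion_finset_le _ _).trans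
      (Finset.sum_le_sum fun i hi => (transport _ _ (hP2 i hi) (B i) (hB i) K).2.1.le)
  calc (1 / 2 : ENNReal)
      ≤ volume B₁ / volume ((ℝ ∙ v)ᗮ.orthogonalProjectionOnto '' K)
        + volume B₂ / volume ((ℝ ∙ w)ᗮ.orthogonalProjectionOnto '' K) := main
    _ ≤ (∑ i ∈ I₁, volume (B i)) / volume ((ℝ ∙ v)ᗮ.orthogonalProjectionOnto '' K)
        + (∑ i ∈ I₂, volume (B i)) / volume ((ℝ ∙ w)ᗮ.orthogonalProjectionOnto '' K) :=
        add_le_add (ENNReal.div_le_div_right b1 _) (ENNReal.div_le_div_right b2 _)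
    _ = ∑ i ∈ I₁, volume (B i) / volume ((ℝ ∙ u i)ᗮ.orthogonalProjectionOnto '' K)
        + ∑ i ∈ I₂, volume (B i) / volume ((ℝ ∙ u i)ᗮ.orthogonalProjectionOnto '' K) := by
        congr 1
        · rw [div_eq_mul_inv, Finset.sum_mul]
          refine Finset.sum_congr rfl fun i hi => ?_
          rw [(transport _ _ (hP1 i hi) (B i) (hB i) K).2.2.1, div_eq_mul_inv]
        · rw [div_eq_mul_inv, Finset.sum_mul]
          refine Finset.sum_congr rfl fun i hi => ?_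
          rw [(transport _ _ (hP2 i hi) (B i) (hB i) K).2.2.1, div_eq_mul_inv]
    _ = ∑ i, volume (B i) / volume ((ℝ ∙ u i)ᗮ.orthogonalProjectionOnto '' K) :=
        Finset.sum_filter_add_sum_filter_not _ _ _

/-- every finite covering by cylinders whose axes are parallel to at most two lines -/
theorem family_two_directions (hE : finrank ℝ E3 = 3) {ι : Type*} [Fintype ι] (K : Set E3) (hc : IsCompact K)
    (hv : Convex ℝ K) (hi : (interior K).Nonempty)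
    (u : ι → E3) (hu : ∀ i, ‖u i‖ = 1)
    (B : (i : ι) → Set (ℝ ∙ u i)ᗮ) (hB : ∀ i, MeasurableSet (B i))
    (hcov : ∀ x ∈ K, ∃ i, ∃ b ∈ B i, ∃ t : ℝ, x = (b : E3) + t • u i)
    (v w : E3) (hdir : ∀ i, ℝ ∙ u i = ℝ ∙ v ∨ ℝ ∙ u i = ℝ ∙ w) :
    1 / 2 ≤ ∑ i, volume (B i) / volume ((ℝ ∙ u i)ᗮ.orthogonalProjectionOnto '' K) ∧
    1 / 2 * (⨅ (e : E3) (_ : ‖e‖ = 1), volume ((ℝ ∙ e)ᗮ.orthogonalProjectionOnto '' K))
      ≤ ∑ i, volume (B i) := by
  have hu0 : ∀ i, u i ≠ 0 := fun i h => by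
    have := hu i
    rw [h, norm_zero] at this
    exact zero_ne_one this
  have hspan : ∀ i, ℝ ∙ u i ≠ ℝ ∙ (0 : E3) := fun i h => by
    rw [Submodule.span_zero_singleton, Submodule.span_singleton_eq_bot] at h
    exact hu0 i h
  obtain ⟨x0, hx0⟩ := hi
  obtain ⟨i0, -⟩ := hcov x0 (interior_subset hx0)
  have first : 1 / 2 ≤ ∑ i, volume (B i) / volume ((ℝ ∙ u i)ᗮ.orthogonalProjectionOnto '' K) := by
    by_cases hv0 : v = 0
    · by_cases hw0 : w = 0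
      · subst hv0 hw0
        exact absurd ((hdir i0).elim id id) (hspan i0)
      · subst hv0
        exact family_core hE K hc hv ⟨x0, hx0⟩ u B hB hcov w w hw0 hw0
          fun i => (hdir i).elim (fun h => absurd h (hspan i)) Or.inl
    · by_cases hw0 : w = 0
      · subst hw0
        exact family_core hE K hc hv ⟨x0, hx0⟩ u B hB hcov v v hv0 hv0
          fun i => (hdir i).elim Or.inl (fun h => absurd h (hspan i))
      · exact family_core hE K hc hv ⟨x0, hx0⟩ u B hB hcov v w hv0 hw0 hdir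
  refine ⟨first, ?_⟩
  set A := ⨅ (e : E3) (_ : ‖e‖ = 1), volume ((ℝ ∙ e)ᗮ.orthogonalProjectionOnto '' K) with hA
  have hAle : ∀ i, A ≤ volume ((ℝ ∙ u i)ᗮ.orthogonalProjectionOnto '' K) := fun i =>
    iInf₂_le (u i) (hu i)
  have hAtop : A ≠ ⊤ := by
    refine ne_top_of_le_ne_top ?_ (hAle i0)
    exact (hc.image (ℝ ∙ u i0)ᗮ.orthogonalProjectionOnto.continuous).measure_lt_top.ne
  by_cases hA0 : A = 0
  · rw [hA0, mul_zero]; exact zero_le
  have h2 : (1 / 2 : ENNReal) ≤ (∑ i, volume (B i)) / A := by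
    refine first.trans ?_
    rw [div_eq_mul_inv, Finset.sum_mul]
    refine Finset.sum_le_sum fun i _ => ?_
    rw [← div_eq_mul_inv]
    exact ENNReal.div_le_div_left (hAle i) _
  calc 1 / 2 * A ≤ (∑ i, volume (B i)) / A * A := mul_le_mul_left h2 A
    _ = ∑ i, volume (B i) := ENNReal.div_mul_cancel hA0 hAtop

end Vale.Agent.P243
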