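import Mathlib
import Vale.Agent.P243.Chart
import Vale.Agent.P243.Coplanar
import Vale.Agent.P243.Euclid

open MeasureTheory Set Module

namespace Vale.Agent.P243

variable {E3 : Type*} [NormedAddCommGroup E3] [InnerProductSpace ℝ E3] [FiniteDimensional ℝ E3]
  [MeasurableSpace E3] [BorelSpace E3]

/-- a unit vector orthogonal to two given vectors -/
theorem exists_unit_perp (hE : finrank ℝ E3 = 3) (a b : E3) :
    ∃ c : E3, ‖c‖ = 1 ∧ inner ℝ c a = 0 ∧ inner ℝ c b = 0 := by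
  classical
  set S : Submodule ℝ E3 := Submodule.span ℝ (({a, b} : Finset E3) : Set E3) with hS
  have h1 : finrank ℝ S ≤ 2 :=
    (finrank_span_finset_le_card (R := ℝ) ({a, b} : Finset E3)).trans Finset.card_le_two
  have h2 := S.finrank_add_finrank_orthogonal
  have h3 : 0 < finrank ℝ Sᗮ := by omega
  obtain ⟨x, hx⟩ := (finrank_pos_iff_exists_ne_zero (R := ℝ) (M := Sᗮ)).mp h3
  have hx0 : (x : E3) ≠ 0 := fun h => hx (Subtype.ext h)
  have hxa : inner ℝ (x : E3) a = 0 :=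
    (Submodule.mem_orthogonal' S x).mp x.2 a (Submodule.subset_span (by simp))
  have hxb : inner ℝ (x : E3) b = 0 :=
    (Submodule.mem_orthogonal' S x).mp x.2 b (Submodule.subset_span (by simp))
  refine ⟨‖(x : E3)‖⁻¹ • (x : E3), ?_, ?_, ?_⟩
  · rw [norm_smul, norm_inv, norm_norm, inv_mul_cancel₀ (norm_ne_zero_iff.mpr hx0)]
  · rw [inner_smul_left, hxa, mul_zero]
  · rw [inner_smul_left, hxb, mul_zero]

/-- the shadow in direction `w` in the orthonormal coordinates `(a, b)` of the plane `w^⊥` -/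
theorem shadow_chart (hE : finrank ℝ E3 = 3) (K : Set E3) (w a b : E3) (hw : w ≠ 0) (ha : ‖a‖ = 1)
    (hb : ‖b‖ = 1) (hab : inner ℝ a b = 0) (haw : inner ℝ w a = 0) (hbw : inner ℝ w b = 0) :
    volume ((fun x : E3 => ((inner ℝ x a : ℝ), (inner ℝ x b : ℝ))) '' K)
      = volume ((ℝ ∙ w)ᗮ.orthogonalProjectionOnto '' K) := by
  obtain ⟨Ψ, hm, hΨ⟩ := plane_chart hE w a b hw ha hb hab haw hbw
  have ha' : a ∈ (ℝ ∙ w)ᗮ := Submodule.mem_orthogonal_singleton_iff_inner_right.mpr haw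
  have hb' : b ∈ (ℝ ∙ w)ᗮ := Submodule.mem_orthogonal_singleton_iff_inner_right.mpr hbw
  have e : (fun x : E3 => ((inner ℝ x a : ℝ), (inner ℝ x b : ℝ))) '' K
      = Ψ '' ((ℝ ∙ w)ᗮ.orthogonalProjectionOnto '' K) := by
    rw [image_image]
    refine image_congr fun x _ => ?_
    rw [hΨ]
    have h1 := Submodule.inner_orthogonalProjectionOnto_eq_of_mem_right
      (K := (ℝ ∙ w)ᗮ) (𝕜 := ℝ) ⟨a, ha'⟩ x
    have h2 := Submodule.inner_orthogonalProjectionOnto_eq_of_mem_right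
      (K := (ℝ ∙ w)ᗮ) (𝕜 := ℝ) ⟨b, hb'⟩ x
    rw [Submodule.coe_inner] at h1 h2
    exact Prod.ext h1.symm h2.symm
  rw [e, Ψ.image_eq_preimage_symm]
  exact hm.symm.measure_preimage_equiv _

theorem coplanar_family (hE : finrank ℝ E3 = 3) {ι : Type*} [Fintype ι] (K : Set E3)
    (hc : IsCompact K) (hv : Convex ℝ K) (hne : K.Nonempty)
    (e₀ : E3) (he₀ : ‖e₀‖ = 1)
    (u : ι → E3) (hu : ∀ i, ‖u i‖ = 1) (hperp : ∀ i, inner ℝ (u i) e₀ = 0)
    (B : (i : ι) → Set (ℝ ∙ u i)ᗮ) (hB : ∀ i, MeasurableSet (B i))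
    (hcov : ∀ x ∈ K, ∃ i, ∃ b ∈ B i, ∃ t : ℝ, x = (b : E3) + t • u i) :
    1 / 2 * (⨅ (e : E3) (_ : ‖e‖ = 1 ∧ inner ℝ e e₀ = 0),
        volume ((ℝ ∙ e)ᗮ.orthogonalProjectionOnto '' K))
      ≤ ∑ i, volume (B i) := by
  set H : Submodule ℝ E3 := (ℝ ∙ e₀)ᗮ with hH
  let Φ : E3 → ℝ × H := fun x => (inner ℝ x e₀, H.orthogonalProjectionOnto x)
  have hΦc : Continuous Φ := by fun_prop
  set K' := Φ '' K with hK'
  have hc' : IsCompact K' := hc.image hΦc
  have hv' : Convex ℝ K' := by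
    rintro _ ⟨p, hp, rfl⟩ _ ⟨q, hq, rfl⟩ a b ha hb hab
    refine ⟨a • p + b • q, hv hp hq ha hb hab, ?_⟩
    simp [Φ, inner_add_left, inner_smul_left]
  have hne' : K'.Nonempty := hne.image _
  have hu0 : ∀ i, u i ≠ 0 := fun i h => by
    have := hu i
    rw [h, norm_zero] at this
    exact zero_ne_one this
  choose c hc1 hc2 hc3 using fun i => exists_unit_perp hE e₀ (u i)
  have hcH : ∀ i, c i ∈ H := fun i =>
    Submodule.mem_orthogonal_singleton_iff_inner_left.mpr (hc2 i)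
  let n : ι → H := fun i => ⟨c i, hcH i⟩
  have hn : ∀ i, ‖n i‖ = 1 := fun i => hc1 i
  choose Ψ hΨm hΨ using fun i => plane_chart hE (u i) e₀ (c i) (hu0 i) he₀ (hc1 i)
    (by rw [real_inner_comm]; exact hc2 i) (hperp i) (by rw [real_inner_comm]; exact hc3 i)
  let B' : ι → Set (ℝ × ℝ) := fun i => Ψ i '' B i
  have hB' : ∀ i, MeasurableSet (B' i) := fun i => (Ψ i).measurableSet_image.mpr (hB i)
  have hvol : ∀ i, volume (B' i) = volume (B i) := fun i => by
    rw [show B' i = (Ψ i).symm ⁻¹' B i from (Ψ i).image_eq_preimage_symm _]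
    exact (hΨm i).symm.measure_preimage_equiv _
  have hinn : ∀ (x : E3) (y : H), inner ℝ (H.orthogonalProjectionOnto x) y = inner ℝ x (y : E3) :=
    fun x y => Submodule.inner_orthogonalProjectionOnto_eq_of_mem_right y x
  have hcov' : ∀ p ∈ K', ∃ i, (p.1, inner ℝ p.2 (n i)) ∈ B' i := by
    rintro _ ⟨x, hx, rfl⟩
    obtain ⟨i, b, hb, t, rfl⟩ := hcov x hx
    refine ⟨i, b, hb, ?_⟩
    rw [hΨ]
    refine Prod.ext ?_ ?_
    · show inner ℝ (b : E3) e₀ = inner ℝ ((b : E3) + t • u i) e₀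
      rw [inner_add_left, inner_smul_left, hperp i, mul_zero, add_zero]
    · show inner ℝ (b : E3) (c i) = inner ℝ (H.orthogonalProjectionOnto ((b : E3) + t • u i)) (n i)
      rw [hinn, inner_add_left, inner_smul_left]
      show _ = inner ℝ (b : E3) (c i) + _ * inner ℝ (u i) (c i)
      rw [real_inner_comm (c i) (u i), hc3 i, mul_zero, add_zero]
  set Am := ⨅ (e : E3) (_ : ‖e‖ = 1 ∧ inner ℝ e e₀ = 0),
        volume ((ℝ ∙ e)ᗮ.orthogonalProjectionOnto '' K) with hAm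
  obtain ⟨x0, hx0⟩ := hne
  obtain ⟨i0, -⟩ := hcov x0 hx0
  have hAtop : Am ≠ ⊤ := by
    refine ne_top_of_le_ne_top ?_ (iInf₂_le (u i0) ⟨hu i0, hperp i0⟩)
    exact (hc.image (ℝ ∙ u i0)ᗮ.orthogonalProjectionOnto.continuous).measure_lt_top.ne
  have hA : ∀ e : H, ‖e‖ = 1 → ENNReal.ofReal Am.toReal ≤ volume (shn e K') := by
    intro e he
    rw [ENNReal.ofReal_toReal hAtop]
    obtain ⟨w, hw1, hw2, hw3⟩ := exists_unit_perp hE e₀ (e : E3)
    have hw0 : w ≠ 0 := fun h => by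
      rw [h, norm_zero] at hw1
      exact zero_ne_one hw1
    have hee : inner ℝ e₀ (e : E3) = 0 :=
      Submodule.mem_orthogonal_singleton_iff_inner_right.mp e.2
    have h1 := shadow_chart hE K w e₀ (e : E3) hw0 he₀ he hee hw2 hw3
    have h2 : shn e K' = (fun x : E3 => ((inner ℝ x e₀ : ℝ), (inner ℝ x (e : E3) : ℝ))) '' K := by
      unfold shn
      rw [hK', image_image]
      refine image_congr fun x _ => ?_
      exact Prod.ext rfl (hinn x e)
    rw [h2, h1]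
    exact iInf₂_le w ⟨hw1, hw2⟩
  have main := coplanar_coord K' hc' hv' hne' n hn B' hB' hcov' Am.toReal hA
  simp_rw [hvol] at main
  refine le_trans (le_of_eq ?_) main
  rw [div_eq_inv_mul, ENNReal.ofReal_mul (by norm_num), ENNReal.ofReal_toReal hAtop]
  congr 1
  rw [ENNReal.ofReal_inv_of_pos (by norm_num)]
  simp

end Vale.Agent.P243
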